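import Vale.Agent.P210.R2.H934.Inv

/-!
# P210, row CALA: the Riemannian measure in a chart
-/

open scoped Manifold ContDiff Topology Bundle NNReal
open Set Metric Filter Bundle IsManifold MeasureTheory Manifold

set_option maxSynthPendingDepth 3
set_option linter.unusedSectionVars false

noncomputable section

namespace Vale.Agent.P210.R2.H934

open H53

variable {E : Type} [NormedAddCommGroup E] [NormedSpace ℝ E] [FiniteDimensional ℝ E]
  [MeasurableSpace E] [BorelSpace E]
  {M : Type} [MetricSpace M] [ChartedSpace E M]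
  [RiemannianBundle (fun x : M => TangentSpace 𝓘(ℝ, E) x)]
  [IsManifold 𝓘(ℝ, E) ∞ M]
  [IsContMDiffRiemannianBundle 𝓘(ℝ, E) ∞ E (fun x : M => TangentSpace 𝓘(ℝ, E) x)]
  [MeasurableSpace M] [BorelSpace M]
  {e : OpenPartialHomeomorph M E} {μ : Measure M}

/-- Lebesgue measure on the chart domain -/
def rho (e : OpenPartialHomeomorph M E) : Measure E :=
  (Module.finBasis ℝ E).addHaar.restrict e.target

/-- the Riemannian measure in the chart -/
def nu (e : OpenPartialHomeomorph M E) : Measure E :=
  (rho e).withDensity (fun z => ENNReal.ofReal (dens (chartG e) z))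

instance (e : OpenPartialHomeomorph M E) : SFinite (rho e) := by
  unfold rho; infer_instance

theorem dens_nonneg (G : E → E →L[ℝ] E →L[ℝ] ℝ) (z : E) : 0 ≤ dens G z := Real.sqrt_nonneg _

theorem nu_ac (e : OpenPartialHomeomorph M E) : nu e ≪ rho e :=
  withDensity_absolutelyContinuous _ _

theorem aemeasurable_symm (e : OpenPartialHomeomorph M E) : AEMeasurable e.symm (rho e) :=
  e.continuousOn_symm.aemeasurable e.open_target.measurableSet

theorem aemeasurable_dens (he : e ∈ maximalAtlas 𝓘(ℝ, E) ∞ M) :
    AEMeasurable (fun z => ENNReal.ofReal (dens (chartG e) z)) (rho e) :=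
  ((contDiffOn_dens (localRiem_chartG he)).continuousOn.aemeasurable
    e.open_target.measurableSet).ennreal_ofReal

theorem restrict_eq_map (hμ : IsVol E μ) (he : e ∈ maximalAtlas 𝓘(ℝ, E) ∞ M) :
    μ.restrict e.source = (nu e).map e.symm := by
  classical
  ext s hs
  have hm : AEMeasurable e.symm (nu e) := (aemeasurable_symm e).mono_ac (nu_ac e)
  have hso : MeasurableSet (s ∩ e.source) := hs.inter e.open_source.measurableSet
  rw [Measure.map_apply_of_aemeasurable hm hs, Measure.restrict_apply hs,
    ← lintegral_indicator_one hso]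
  have h1 := hμ e he ((s ∩ e.source).indicator 1) (measurable_one.indicator hso)
    (fun p hp => by rw [indicator_of_notMem]; exact fun h => hp h.2)
  rw [h1, nu, withDensity_apply' _ _,
    ← lintegral_indicator₀ ((aemeasurable_symm e).nullMeasurableSet_preimage hs)]
  refine setLIntegral_congr_fun e.open_target.measurableSet fun z hz => ?_
  have hz' : e.symm z ∈ e.source := e.map_target hz
  by_cases h : e.symm z ∈ s
  · rw [indicator_of_mem (show e.symm z ∈ s ∩ e.source from ⟨h, hz'⟩),
      indicator_of_mem (show z ∈ e.symm ⁻¹' s from h)]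
    simp
  · rw [indicator_of_notMem (show e.symm z ∉ s ∩ e.source from fun hh => h hh.1),
      indicator_of_notMem (show z ∉ e.symm ⁻¹' s from h)]
    simp

/-- transfer of an integral to a chart -/
theorem setIntegral_chart (hμ : IsVol E μ) (he : e ∈ maximalAtlas 𝓘(ℝ, E) ∞ M) {f : M → ℝ}
    (hf : AEStronglyMeasurable f (μ.restrict e.source)) :
    ∫ p in e.source, f p ∂μ =
      ∫ z in e.target, dens (chartG e) z * f (e.symm z) ∂(Module.finBasis ℝ E).addHaar := by
  have hm : AEMeasurable e.symm (nu e) := (aemeasurable_symm e).mono_ac (nu_ac e)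
  rw [restrict_eq_map hμ he] at hf ⊢
  rw [integral_map hm hf, nu, integral_withDensity_eq_integral_toReal_smul₀ (aemeasurable_dens he)
    (Eventually.of_forall fun z => ENNReal.ofReal_lt_top)]
  refine setIntegral_congr_fun e.open_target.measurableSet fun z hz => ?_
  show (ENNReal.ofReal (dens (chartG e) z)).toReal • f (e.symm z) = _
  rw [ENNReal.toReal_ofReal (dens_nonneg _ _), smul_eq_mul]

/-- transfer of integrability from a chart -/
theorem integrableOn_chart (hμ : IsVol E μ) (he : e ∈ maximalAtlas 𝓘(ℝ, E) ∞ M) {f : M → ℝ}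
    (hf : AEStronglyMeasurable f (μ.restrict e.source))
    (hi : IntegrableOn (fun z => dens (chartG e) z * f (e.symm z)) e.target
      (Module.finBasis ℝ E).addHaar) : IntegrableOn f e.source μ := by
  have hm : AEMeasurable e.symm (nu e) := (aemeasurable_symm e).mono_ac (nu_ac e)
  rw [IntegrableOn, restrict_eq_map hμ he] at *
  rw [integrable_map_measure hf hm, nu,
    integrable_withDensity_iff_integrable_smul₀' (aemeasurable_dens he)
    (Eventually.of_forall fun z => ENNReal.ofReal_lt_top)]
  refine (integrableOn_congr_fun (fun z hz => ?_) e.open_target.measurableSet).1 hi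
  show _ = (ENNReal.ofReal (dens (chartG e) z)).toReal • (f ∘ e.symm) z
  rw [ENNReal.toReal_ofReal (dens_nonneg _ _), smul_eq_mul]
  rfl

/-- measurable extension of a chart -/
def ext0 (e : OpenPartialHomeomorph M E) (p : M) : E := by
  classical exact e.source.piecewise e (fun _ => 0) p

theorem measurable_ext0 (e : OpenPartialHomeomorph M E) : Measurable (ext0 e) := by
  classical
  exact e.continuousOn.measurable_piecewise continuousOn_const e.open_source.measurableSet

theorem ext0_apply (e : OpenPartialHomeomorph M E) {p : M} (hp : p ∈ e.source) :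
    ext0 e p = e p := by
  classical
  exact piecewise_eq_of_mem _ _ _ hp

/-- transfer of an almost everywhere statement from a chart -/
theorem ae_chart (hμ : IsVol E μ) (he : e ∈ maximalAtlas 𝓘(ℝ, E) ∞ M) {P : M → Prop}
    (h : ∀ᵐ z ∂rho e, P (e.symm z)) : ∀ᵐ p ∂μ.restrict e.source, P p := by
  obtain ⟨N, hN, hNm, hN0⟩ := exists_measurable_superset_of_null (ae_iff.1 h)
  have hm : AEMeasurable e.symm (nu e) := (aemeasurable_symm e).mono_ac (nu_ac e)
  set A : Set M := e.source ∩ ext0 e ⁻¹' N with hA
  have hAm : MeasurableSet A := e.open_source.measurableSet.inter (measurable_ext0 e hNm)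
  have h1 : μ.restrict e.source A = 0 := by
    rw [restrict_eq_map hμ he, Measure.map_apply_of_aemeasurable hm hAm]
    refine nu_ac e ?_
    have h2 : rho e (e.symm ⁻¹' A) = rho e (e.symm ⁻¹' A ∩ e.target) := by
      rw [rho, Measure.restrict_apply' e.open_target.measurableSet,
        Measure.restrict_apply' e.open_target.measurableSet, inter_assoc, inter_self]
    rw [h2]
    refine measure_mono_null ?_ hN0
    rintro z ⟨hz, hzt⟩
    have h3 : ext0 e (e.symm z) ∈ N := hz.2
    rwa [ext0_apply e (e.map_target hzt), e.right_inv hzt] at h3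
  have h2 : ∀ᵐ p ∂μ.restrict e.source, p ∉ A := by
    rw [ae_iff]; simpa using h1
  filter_upwards [h2, ae_restrict_mem e.open_source.measurableSet] with p hp hps
  by_contra hnP
  apply hp
  refine ⟨hps, ?_⟩
  show ext0 e p ∈ N
  rw [ext0_apply e hps]
  apply hN
  show ¬ P (e.symm (e p))
  rwa [e.left_inv hps]

theorem rho_ac (he : e ∈ maximalAtlas 𝓘(ℝ, E) ∞ M) : rho e ≪ nu e := by
  refine withDensity_absolutelyContinuous' (aemeasurable_dens he) ?_
  filter_upwards [ae_restrict_mem (μ := (Module.finBasis ℝ E).addHaar)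
    e.open_target.measurableSet] with z hz
  exact (ENNReal.ofReal_pos.2 (dens_pos (localRiem_chartG he) hz)).ne'

/-- points have neighbourhoods of finite measure -/
theorem exists_nhds_finite (hμ : IsVol E μ) (p : M) : ∃ V ∈ 𝓝 p, μ V < ⊤ := by
  set e := chartAt E p with hedef
  have he : e ∈ maximalAtlas 𝓘(ℝ, E) ∞ M := IsManifold.chart_mem_maximalAtlas p
  have hp : p ∈ e.source := mem_chart_source E p
  obtain ⟨L, hLc, hL, hLt⟩ := exists_compact_subset e.open_target (e.map_source hp)
  have hLm : MeasurableSet L := hLc.isClosed.measurableSet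
  obtain ⟨C, hC⟩ := hLc.exists_bound_of_continuousOn
    ((contDiffOn_dens (localRiem_chartG he)).continuousOn.mono hLt)
  set V : Set M := e.source ∩ ext0 e ⁻¹' L with hV
  have hVm : MeasurableSet V := e.open_source.measurableSet.inter (measurable_ext0 e hLm)
  refine ⟨V, ?_, ?_⟩
  · filter_upwards [e.open_source.mem_nhds hp,
      (e.continuousAt hp).preimage_mem_nhds (mem_interior_iff_mem_nhds.1 hL)] with q hq hq'
    refine ⟨hq, ?_⟩
    show ext0 e q ∈ L
    rw [ext0_apply e hq]
    exact hq'
  · rw [← lintegral_indicator_one hVm, hμ e he (V.indicator 1) (measurable_one.indicator hVm)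
      (fun q hq => by rw [indicator_of_notMem]; exact fun h => hq h.1)]
    have h1 : ∀ z ∈ e.target, V.indicator (1 : M → ENNReal) (e.symm z) *
        ENNReal.ofReal (dens (chartG e) z) ≤ L.indicator (fun _ => ENNReal.ofReal C) z := by
      intro z hz
      by_cases h : e.symm z ∈ V
      · have h2 : ext0 e (e.symm z) ∈ L := h.2
        rw [ext0_apply e h.1, e.right_inv hz] at h2
        rw [indicator_of_mem h, indicator_of_mem h2, Pi.one_apply, one_mul]
        exact ENNReal.ofReal_le_ofReal ((le_abs_self _).trans (hC z h2))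
      · rw [indicator_of_notMem h, zero_mul]
        exact zero_le
    refine lt_of_le_of_lt (setLIntegral_mono' e.open_target.measurableSet h1) ?_
    refine lt_of_le_of_lt (setLIntegral_le_lintegral _ _) ?_
    rw [lintegral_indicator hLm, setLIntegral_const]
    exact ENNReal.mul_lt_top ENNReal.ofReal_lt_top hLc.measure_lt_top

theorem compact_finite (hμ : IsVol E μ) {K : Set M} (hK : IsCompact K) : μ K < ⊤ :=
  hK.measure_lt_top_of_nhdsWithin fun p _ => by
    obtain ⟨V, hV, hV'⟩ := exists_nhds_finite hμ p
    exact ⟨V, mem_nhdsWithin_of_mem_nhds hV, hV'⟩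

theorem open_pos (hμ : IsVol E μ) {U : Set M} (hU : IsOpen U) (hne : U.Nonempty) : 0 < μ U := by
  obtain ⟨p, hpU⟩ := hne
  set e := chartAt E p with hedef
  have he : e ∈ maximalAtlas 𝓘(ℝ, E) ∞ M := IsManifold.chart_mem_maximalAtlas p
  have hp : p ∈ e.source := mem_chart_source E p
  have hm : AEMeasurable e.symm (nu e) := (aemeasurable_symm e).mono_ac (nu_ac e)
  have hWo : IsOpen (e.target ∩ e.symm ⁻¹' U) := e.isOpen_inter_preimage_symm hU
  have hWn : (e.target ∩ e.symm ⁻¹' U).Nonempty :=
    ⟨e p, e.map_source hp, by show e.symm (e p) ∈ U; rwa [e.left_inv hp]⟩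
  rw [pos_iff_ne_zero]
  intro h0
  have h1 : μ.restrict e.source U = 0 :=
    le_antisymm ((Measure.restrict_apply_le _ _).trans h0.le) zero_le
  rw [restrict_eq_map hμ he, Measure.map_apply_of_aemeasurable hm hU.measurableSet] at h1
  have h2 : rho e (e.symm ⁻¹' U) = 0 := rho_ac he h1
  rw [rho, Measure.restrict_apply' e.open_target.measurableSet, inter_comm] at h2
  exact (hWo.measure_pos _ hWn).ne' h2

variable [ProperSpace M]

/-- countable cover by chart domains -/
theorem exists_countable_charts : ∃ s : Set M, s.Countable ∧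
    ⋃ p ∈ s, (chartAt E p).source = univ := by
  have : SecondCountableTopology M := inferInstance
  exact TopologicalSpace.countable_cover_nhds fun p : M =>
    (chartAt E p).open_source.mem_nhds (mem_chart_source E p)

theorem ae_of_charts (hμ : IsVol E μ) {P : M → Prop}
    (h : ∀ e ∈ maximalAtlas 𝓘(ℝ, E) ∞ M, ∀ᵐ z ∂rho e, P (e.symm z)) : ∀ᵐ p ∂μ, P p := by
  obtain ⟨s, hs, hsu⟩ := exists_countable_charts (E := E) (M := M)
  rw [← Measure.restrict_univ (μ := μ), ← hsu, ae_restrict_biUnion_iff _ hs]
  intro p _
  exact ae_chart hμ (IsManifold.chart_mem_maximalAtlas p)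
    (h _ (IsManifold.chart_mem_maximalAtlas p))

end Vale.Agent.P210.R2.H934
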