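import Vale.Agent.P210.R2.H934.Rad

/-!
# P210, row CALA: integration by parts on the manifold
-/

open scoped Manifold ContDiff Topology Bundle NNReal
open Set Metric Filter Bundle IsManifold MeasureTheory Manifold

set_option maxSynthPendingDepth 3
set_option linter.unusedSectionVars false

noncomputable section

namespace Vale.Agent.P210.R2.H934

open H53

/-- product of two functions which are Lipschitz near a point -/
theorem mul_lip {X : Type*} [PseudoMetricSpace X] {f g : X → ℝ} {z : X}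
    (hf : ∃ K : ℝ≥0, ∃ t ∈ 𝓝 z, LipschitzOnWith K f t)
    (hg : ∃ K : ℝ≥0, ∃ t ∈ 𝓝 z, LipschitzOnWith K g t) :
    ∃ K : ℝ≥0, ∃ t ∈ 𝓝 z, LipschitzOnWith K (fun x => f x * g x) t := by
  obtain ⟨Kf, tf, htf, hf⟩ := hf
  obtain ⟨Kg, tg, htg, hg⟩ := hg
  have hfc : ContinuousAt f z := hf.continuousOn.continuousAt htf
  have hgc : ContinuousAt g z := hg.continuousOn.continuousAt htg
  have hfb : ∀ᶠ x in 𝓝 z, |f x| < |f z| + 1 :=
    (hfc.abs).eventually_lt_const (lt_add_one _)
  have hgb : ∀ᶠ x in 𝓝 z, |g x| < |g z| + 1 :=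
    (hgc.abs).eventually_lt_const (lt_add_one _)
  refine ⟨Real.toNNReal ((|f z| + 1) * Kg + (|g z| + 1) * Kf),
    (tf ∩ tg) ∩ {x | |f x| < |f z| + 1 ∧ |g x| < |g z| + 1},
    inter_mem (inter_mem htf htg) (hfb.and hgb), LipschitzOnWith.of_dist_le_mul ?_⟩
  rintro x ⟨⟨hx1, hx2⟩, hx3, hx4⟩ y ⟨⟨hy1, hy2⟩, hy3, hy4⟩
  rw [Real.coe_toNNReal _ (by positivity)]
  have h1 := hf.dist_le_mul x hx1 y hy1
  have h2 := hg.dist_le_mul x hx2 y hy2
  rw [Real.dist_eq] at h1 h2 ⊢
  have h3 : f x * g x - f y * g y = f x * (g x - g y) + g y * (f x - f y) := by ring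
  rw [h3]
  refine (abs_add_le _ _).trans ?_
  rw [abs_mul, abs_mul]
  have h4 : |f x| * |g x - g y| ≤ (|f z| + 1) * (Kg * dist x y) :=
    mul_le_mul hx3.le h2 (abs_nonneg _) (by positivity)
  have h5 : |g y| * |f x - f y| ≤ (|g z| + 1) * (Kf * dist x y) :=
    mul_le_mul hy4.le h1 (abs_nonneg _) (by positivity)
  linarith

variable {E : Type} [NormedAddCommGroup E] [NormedSpace ℝ E] [FiniteDimensional ℝ E]
  {M : Type} [MetricSpace M] [ChartedSpace E M]
  [RiemannianBundle (fun x : M => TangentSpace 𝓘(ℝ, E) x)]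
  [IsManifold 𝓘(ℝ, E) ∞ M]
  [IsContMDiffRiemannianBundle 𝓘(ℝ, E) ∞ E (fun x : M => TangentSpace 𝓘(ℝ, E) x)]
  {e : OpenPartialHomeomorph M E}

theorem gam_eq_zero (u : M → ℝ) {w : M → ℝ} {p : M} (hp : p ∉ tsupport w) :
    Gam E u w p = 0 := by
  have h1 : w =ᶠ[𝓝 p] 0 := notMem_tsupport_iff_eventuallyEq.1 hp
  set e := chartAt E p with hedef
  have hps : p ∈ e.source := mem_chart_source E p
  have h2 : w ∘ e.symm =ᶠ[𝓝 (e p)] fun _ => (0 : ℝ) := by
    have h3 : Tendsto e.symm (𝓝 (e p)) (𝓝 p) := by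
      have := e.continuousAt_symm (e.map_source hps)
      rwa [ContinuousAt, e.left_inv hps] at this
    exact h3.eventually h1
  have h4 : fderiv ℝ (w ∘ e.symm) (e p) = 0 := by
    rw [h2.fderiv_eq]; simp
  rw [Gam, gamG, gradG, ← hedef, h4, map_zero, map_zero]

variable [MeasurableSpace E] [BorelSpace E] [MeasurableSpace M] [BorelSpace M] {μ : Measure M}
  [IsRiemannianManifold 𝓘(ℝ, E) M] [ProperSpace M]

/-- integration by parts for functions supported in a chart domain -/
theorem ibp_chart (hμ : IsVol E μ) (he : e ∈ maximalAtlas 𝓘(ℝ, E) ∞ M) {u : M → ℝ}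
    (hu : ContMDiff 𝓘(ℝ, E) 𝓘(ℝ, ℝ) ∞ u) {w : M → ℝ} (hw : Continuous w)
    (hwc : HasCompactSupport w) (hws : tsupport w ⊆ e.source)
    (hwl : ∀ z ∈ e.target, ∃ K : ℝ≥0, ∃ t ∈ 𝓝 z, LipschitzOnWith K (w ∘ e.symm) t) :
    Integrable (Gam E u w) μ ∧ Integrable (fun p => w p * Lap E u p) μ ∧
    ∫ p, Gam E u w p ∂μ = -∫ p, w p * Lap E u p ∂μ := by
  have : ProperSpace E := FiniteDimensional.proper_real E
  have hfc : IsFiniteMeasureOnCompacts μ := ⟨fun K hK => compact_finite hμ hK⟩
  set φ : E → ℝ := u ∘ e.symm with hφ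
  set ψ : E → ℝ := e.target.indicator (w ∘ e.symm) with hψ
  have hK : IsCompact (e '' tsupport w) := hwc.image_of_continuousOn (e.continuousOn.mono hws)
  have hKt : e '' tsupport w ⊆ e.target := by
    rintro _ ⟨p, hp, rfl⟩
    exact e.map_source (hws hp)
  have htsupp : tsupport ψ ⊆ e '' tsupport w := by
    refine closure_minimal ?_ hK.isClosed
    intro z hz
    have hzt : z ∈ e.target := by
      by_contra hn
      exact hz (indicator_of_notMem hn _)
    have h1 : w (e.symm z) ≠ 0 := by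
      have : ψ z ≠ 0 := hz
      rwa [hψ, indicator_of_mem hzt] at this
    exact ⟨e.symm z, subset_tsupport _ h1, e.right_inv hzt⟩
  have hψc : HasCompactSupport ψ := hK.of_isClosed_subset (isClosed_tsupport _) htsupp
  have hev : ∀ z ∈ e.target, w ∘ e.symm =ᶠ[𝓝 z] ψ := by
    intro z hz
    filter_upwards [e.open_target.mem_nhds hz] with y hy
    rw [hψ, indicator_of_mem hy]
  have hψl : LocallyLipschitz ψ := by
    intro z
    by_cases hz : z ∈ e.target
    · obtain ⟨K, t, ht, hKl⟩ := hwl z hz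
      refine ⟨K, t ∩ e.target, inter_mem ht (e.open_target.mem_nhds hz), ?_⟩
      intro x hx y hy
      rw [hψ, indicator_of_mem hx.2, indicator_of_mem hy.2]
      exact hKl hx.1 hy.1
    · refine ⟨0, (e '' tsupport w)ᶜ, hK.isClosed.isOpen_compl.mem_nhds
        (fun h => hz (hKt h)), ?_⟩
      intro x hx y hy
      rw [image_eq_zero_of_notMem_tsupport fun h => hx (htsupp h),
        image_eq_zero_of_notMem_tsupport fun h => hy (htsupp h), edist_self]
      exact zero_le
  obtain ⟨C, hC⟩ := lipschitz_of_locally hψl hψc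
  obtain ⟨hI, hibp⟩ := ibp_metric (Module.finBasis ℝ E).addHaar (localRiem_chartG he)
    (contDiffOn_chart he hu) hC hψc (htsupp.trans hKt)
  have h1 : ∀ z ∈ e.target, dens (chartG e) z * Gam E u w (e.symm z) =
      dens (chartG e) z * gamG (chartG e) φ ψ z := by
    intro z hz
    rw [gam_chart he (e.map_target hz), e.right_inv hz]
    simp only [gamG, gradG, (hev z hz).fderiv_eq, hφ]
  have h2 : ∀ z ∈ e.target, dens (chartG e) z * (w (e.symm z) * Lap E u (e.symm z)) =
      dens (chartG e) z * (ψ z * lapG (chartG e) φ z) := by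
    intro z hz
    rw [lap_chart he (e.map_target hz) hu, e.right_inv hz, hψ, indicator_of_mem hz]
    rfl
  have hm : AEStronglyMeasurable (Gam E u w) (μ.restrict e.source) :=
    (measurable_gam u w).aestronglyMeasurable
  have hcont : Continuous (fun p => w p * Lap E u p) := hw.mul (continuous_lap hu)
  have h3 : IntegrableOn (Gam E u w) e.source μ :=
    integrableOn_chart hμ he hm
      (hI.congr_fun (fun z hz => (h1 z hz).symm) e.open_target.measurableSet)
  have h4 : ∀ p ∉ e.source, Gam E u w p = 0 := fun p hp => gam_eq_zero u fun h => hp (hws h)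
  have h5 : ∀ p ∉ e.source, w p * Lap E u p = 0 := fun p hp => by
    rw [image_eq_zero_of_notMem_tsupport fun h => hp (hws h), zero_mul]
  refine ⟨(integrableOn_iff_integrable_of_support_subset ?_).1 h3,
    hcont.integrable_of_hasCompactSupport hwc.mul_right, ?_⟩
  · intro p hp
    by_contra hn
    exact hp (h4 p hn)
  · rw [← setIntegral_eq_integral_of_forall_compl_eq_zero h4,
      ← setIntegral_eq_integral_of_forall_compl_eq_zero h5,
      setIntegral_chart hμ he hm, setIntegral_chart hμ he hcont.aestronglyMeasurable,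
      setIntegral_congr_fun e.open_target.measurableSet h1,
      setIntegral_congr_fun e.open_target.measurableSet h2]
    exact hibp

/-- integration by parts -/
theorem ibp_mfd (hμ : IsVol E μ) {u v : M → ℝ} (hu : TF E u) (hv : LC v) :
    ∫ p, Gam E u v p ∂μ = -∫ p, v p * Lap E u p ∂μ := by
  obtain ⟨⟨C, hvl⟩, hvc⟩ := hv
  have hvc' : IsCompact (tsupport v) := hvc
  obtain ⟨T, -, hT⟩ := hvc'.elim_nhds_subcover (fun p => (chartAt E p).source)
    (fun p _ => (chartAt E p).open_source.mem_nhds (mem_chart_source E p))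
  have hT' : tsupport v ⊆ ⋃ i : T, (chartAt E (i : M)).source := by
    intro q hq
    obtain ⟨p, hp, hqp⟩ := mem_iUnion₂.1 (hT hq)
    exact mem_iUnion.2 ⟨⟨p, hp⟩, hqp⟩
  obtain ⟨f, hf⟩ := SmoothPartitionOfUnity.exists_isSubordinate 𝓘(ℝ, E)
    (isClosed_tsupport v) (fun i : T => (chartAt E (i : M)).source)
    (fun i => (chartAt E (i : M)).open_source) hT'
  have hsum : ∀ p, v p = ∑ i : T, f i p * v p := by
    intro p
    by_cases hp : p ∈ tsupport v
    · have h1 := f.sum_eq_one hp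
      rw [finsum_eq_sum_of_fintype] at h1
      rw [← Finset.sum_mul, h1, one_mul]
    · simp [image_eq_zero_of_notMem_tsupport hp]
  have hcm : ∀ i : T, (chartAt E (i : M)) ∈ maximalAtlas 𝓘(ℝ, E) ∞ M := fun i =>
    IsManifold.chart_mem_maximalAtlas _
  have hfs : ∀ i : T, ContMDiff 𝓘(ℝ, E) 𝓘(ℝ, ℝ) ∞ (f i) := fun i => (f i).contMDiff
  -- the pieces
  have hpiece : ∀ i : T, Integrable (Gam E u (fun p => f i p * v p)) μ ∧
      Integrable (fun p => (f i p * v p) * Lap E u p) μ ∧
      ∫ p, Gam E u (fun p => f i p * v p) p ∂μ = -∫ p, (f i p * v p) * Lap E u p ∂μ := by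
    intro i
    refine ibp_chart hμ (hcm i) hu.1 ((hfs i).continuous.mul hvl.continuous) hvc.mul_left
      ((tsupport_mul_subset_left).trans (hf i)) fun z hz => ?_
    have h1 : ∃ K : ℝ≥0, ∃ t ∈ 𝓝 z,
        LipschitzOnWith K ((f i : M → ℝ) ∘ (chartAt E (i : M)).symm) t := by
      have h2 : ContDiffAt ℝ 1 ((f i : M → ℝ) ∘ (chartAt E (i : M)).symm) z :=
        (((contDiffOn_chart (hcm i) (hfs i)).contDiffAt
          ((chartAt E (i : M)).open_target.mem_nhds hz))).of_le (by norm_cast)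
      exact h2.exists_lipschitzOnWith
    have h3 : ∃ K : ℝ≥0, ∃ t ∈ 𝓝 z, LipschitzOnWith K (v ∘ (chartAt E (i : M)).symm) t := by
      obtain ⟨K, r, hr, -, hK⟩ := comp_symm_lip (hcm i) hvl.locallyLipschitz hz
      exact ⟨K, ball z r, ball_mem_nhds z hr, hK⟩
    exact mul_lip h1 h3
  -- linearity
  have hae : ∀ᵐ p ∂μ, Gam E u v p = ∑ i : T, Gam E u (fun p => f i p * v p) p := by
    filter_upwards [ae_mdiff hμ hvl.locallyLipschitz] with p hp
    set e := chartAt E p with hedef
    have he : e ∈ maximalAtlas 𝓘(ℝ, E) ∞ M := IsManifold.chart_mem_maximalAtlas p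
    have hps : p ∈ e.source := mem_chart_source E p
    have hvd : DifferentiableAt ℝ (v ∘ e.symm) (e p) := (mdiff_iff_chart he hps v).1 hp
    have hfd : ∀ i : T, DifferentiableAt ℝ ((f i : M → ℝ) ∘ e.symm) (e p) := fun i =>
      ((contDiffOn_chart he (hfs i)).contDiffAt
        (e.open_target.mem_nhds (e.map_source hps))).differentiableAt (by simp)
    have hprod : ∀ i : T, DifferentiableAt ℝ ((fun p => f i p * v p) ∘ e.symm) (e p) :=
      fun i => (hfd i).mul hvd
    have hL := localRiem_chartG he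
    have hz := e.map_source hps
    have h1 : v ∘ e.symm = fun z => ∑ i : T, ((fun p => f i p * v p) ∘ e.symm) z := by
      funext z
      exact hsum (e.symm z)
    have h2 : fderiv ℝ (v ∘ e.symm) (e p) =
        ∑ i : T, fderiv ℝ ((fun p => f i p * v p) ∘ e.symm) (e p) := by
      rw [h1]
      exact fderiv_fun_sum fun i _ => hprod i
    show gamG (chartG e) (u ∘ e.symm) (v ∘ e.symm) (e p) =
      ∑ i : T, gamG (chartG e) (u ∘ e.symm) ((fun p => f i p * v p) ∘ e.symm) (e p)
    rw [gamG_comm hL hz, gamG, h2, sum_apply]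
    refine Finset.sum_congr rfl fun i _ => ?_
    rw [gamG_comm hL hz, gamG]
  have h6 : ∀ p, v p * Lap E u p = ∑ i : T, (f i p * v p) * Lap E u p := by
    intro p
    rw [← Finset.sum_mul, ← hsum p]
  rw [integral_congr_ae hae, integral_finsetSum _ fun i _ => (hpiece i).1]
  simp only [h6]
  rw [integral_finsetSum _ fun i _ => (hpiece i).2.1, ← Finset.sum_neg_distrib]
  exact Finset.sum_congr rfl fun i _ => (hpiece i).2.2

/-- Lipschitz calculus and integration by parts -/
theorem cala : Stmt.CALA := by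
  intro E _ _ _ _ _ M _ _ _ _ _ _ _ _ _ _ μ hμ
  exact ⟨fun K hK => compact_finite hμ hK, fun U hU hne => open_pos hμ hU hne,
    fun u hu => ae_mdiff hμ hu, fun u v _ _ => measurable_gam u v,
    fun u v hu hv => ibp_mfd hμ hu hv⟩

end Vale.Agent.P210.R2.H934
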