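import Vale.Agent.P210.R2.H53.RDefs
import Mathlib.Analysis.Matrix.PosDef
import Mathlib.Analysis.Calculus.LineDeriv.IntegrationByParts
import Mathlib.Analysis.Calculus.Rademacher

/-!
# P210, row CALA: flat part

The density of a metric, its derivative, the divergence form of the Laplacian, integration by
parts for Lipschitz functions.
-/

open scoped ContDiff Topology
open Set Metric Filter MeasureTheory

set_option maxSynthPendingDepth 3

noncomputable section

namespace Vale.Agent.P210.R2.H934

open H53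

section MatDet

variable {ι : Type} [Fintype ι] [DecidableEq ι]

theorem differentiable_matDet :
    Differentiable ℝ (fun X : ι → ι → ℝ => (Matrix.of X).det) := by
  have h : (fun X : ι → ι → ℝ => (Matrix.of X).det)
      = fun X => ∑ σ : Equiv.Perm ι, ((Equiv.Perm.sign σ : ℤ) : ℝ) * ∏ i, X (σ i) i := by
    funext X
    rw [Matrix.det_apply']
    rfl
  rw [h]
  intro X
  refine DifferentiableAt.fun_sum fun σ _ => DifferentiableAt.const_mul ?_ _
  have : ∀ i, DifferentiableAt ℝ (fun Y : ι → ι → ℝ => Y (σ i) i) X := by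
    intro i
    fun_prop
  exact (HasFDerivAt.finsetProd (u := Finset.univ) fun i _ =>
    (this i).hasFDerivAt).differentiableAt

theorem contDiff_matDet :
    ContDiff ℝ ∞ (fun X : ι → ι → ℝ => (Matrix.of X).det) := by
  have h : (fun X : ι → ι → ℝ => (Matrix.of X).det)
      = fun X => ∑ σ : Equiv.Perm ι, ((Equiv.Perm.sign σ : ℤ) : ℝ) * ∏ i, X (σ i) i := by
    funext X
    rw [Matrix.det_apply']
    rfl
  rw [h]
  refine ContDiff.sum fun σ _ => contDiff_const.mul ?_
  refine contDiff_prod fun i _ => ?_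
  fun_prop

/-- the derivative of `det` in the direction `B A` -/
theorem hasDerivAt_matDet_line (A B : Matrix ι ι ℝ) :
    HasDerivAt (fun r : ℝ => (A + r • (B * A)).det) (B.trace * A.det) 0 := by
  have h5 : ∀ r : ℝ, (A + r • (B * A)).det = (1 + r • B).det * A.det := by
    intro r
    rw [← Matrix.det_mul, add_mul, one_mul, smul_mul_assoc]
  have h6 : (fun r : ℝ => (A + r • (B * A)).det) = fun r =>
      (1 + B.trace * r + ((Matrix.det (1 +
        (Polynomial.X : Polynomial ℝ) • B.map Polynomial.C)).divX.divX.eval r)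
          * r ^ 2) * A.det := by
    funext r
    rw [h5, Matrix.det_one_add_smul]
  rw [h6]
  set q : Polynomial ℝ := (Matrix.det (1 +
        (Polynomial.X : Polynomial ℝ) • B.map Polynomial.C)).divX.divX
  have h7 : HasDerivAt (fun r : ℝ => q.eval r * r ^ 2) 0 0 := by
    have := (q.hasDerivAt (0:ℝ)).fun_mul (hasDerivAt_pow 2 (0:ℝ))
    simpa using this
  have h8 : HasDerivAt (fun r : ℝ => 1 + B.trace * r) B.trace 0 := by
    simpa using ((hasDerivAt_id (0:ℝ)).const_mul B.trace).const_add 1
  simpa using (h8.add h7).mul_const A.det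

/-- the derivative of `det` in the direction `A B` -/
theorem hasDerivAt_matDet_line' (A B : Matrix ι ι ℝ) :
    HasDerivAt (fun r : ℝ => (A + r • (A * B)).det) (B.trace * A.det) 0 := by
  have h := hasDerivAt_matDet_line A.transpose B.transpose
  rw [Matrix.trace_transpose, Matrix.det_transpose] at h
  refine h.congr_of_eventuallyEq (Eventually.of_forall fun r => ?_)
  have : A + r • (A * B) = (A.transpose + r • (B.transpose * A.transpose)).transpose := by
    rw [Matrix.transpose_add, Matrix.transpose_smul, Matrix.transpose_mul,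
      Matrix.transpose_transpose, Matrix.transpose_transpose]
  show (A + r • (A * B)).det = (A.transpose + r • (B.transpose * A.transpose)).det
  rw [this, Matrix.det_transpose]

theorem fderiv_matDet_left (A B : Matrix ι ι ℝ) :
    fderiv ℝ (fun X : ι → ι → ℝ => (Matrix.of X).det) A (B * A : Matrix ι ι ℝ) =
      B.trace * A.det := by
  have h1 : HasDerivAt (fun r : ℝ => ((fun i j => A i j + r * (B * A) i j) : ι → ι → ℝ))
      (fun i j => (B * A) i j : ι → ι → ℝ) 0 := by
    refine hasDerivAt_pi.2 fun i => hasDerivAt_pi.2 fun j => ?_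
    simpa using ((hasDerivAt_id (0:ℝ)).mul_const ((B * A) i j)).const_add (A i j)
  have h2 : HasFDerivAt (fun X : ι → ι → ℝ => (Matrix.of X).det)
      (fderiv ℝ (fun X : ι → ι → ℝ => (Matrix.of X).det) A)
      ((fun i j => A i j + (0:ℝ) * (B * A) i j) : ι → ι → ℝ) := by
    have e : ((fun i j => A i j + (0:ℝ) * (B * A) i j) : ι → ι → ℝ) = A := by
      funext i j; simp
    rw [e]
    exact (differentiable_matDet A).hasFDerivAt
  exact (h2.comp_hasDerivAt (0:ℝ) h1).unique (hasDerivAt_matDet_line A B)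

theorem fderiv_matDet_right (A B : Matrix ι ι ℝ) :
    fderiv ℝ (fun X : ι → ι → ℝ => (Matrix.of X).det) A (A * B : Matrix ι ι ℝ) =
      B.trace * A.det := by
  have h1 : HasDerivAt (fun r : ℝ => ((fun i j => A i j + r * (A * B) i j) : ι → ι → ℝ))
      (fun i j => (A * B) i j : ι → ι → ℝ) 0 := by
    refine hasDerivAt_pi.2 fun i => hasDerivAt_pi.2 fun j => ?_
    simpa using ((hasDerivAt_id (0:ℝ)).mul_const ((A * B) i j)).const_add (A i j)
  have h2 : HasFDerivAt (fun X : ι → ι → ℝ => (Matrix.of X).det)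
      (fderiv ℝ (fun X : ι → ι → ℝ => (Matrix.of X).det) A)
      ((fun i j => A i j + (0:ℝ) * (A * B) i j) : ι → ι → ℝ) := by
    have e : ((fun i j => A i j + (0:ℝ) * (A * B) i j) : ι → ι → ℝ) = A := by
      funext i j; simp
    rw [e]
    exact (differentiable_matDet A).hasFDerivAt
  exact (h2.comp_hasDerivAt (0:ℝ) h1).unique (hasDerivAt_matDet_line' A B)

/-- Jacobi's formula for a solution of `A' = Cᵀ A + A C`. -/
theorem hasDerivAt_matDet_sym {A : ℝ → Matrix ι ι ℝ} {C : Matrix ι ι ℝ} {t : ℝ}
    (hA : ∀ i j, HasDerivAt (fun s => A s i j) ((C.transpose * A t + A t * C) i j) t) :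
    HasDerivAt (fun s => (A s).det) (2 * C.trace * (A t).det) t := by
  have h1 : HasDerivAt (fun s => (fun i j => A s i j : ι → ι → ℝ))
      (fun i j => (C.transpose * A t + A t * C) i j : ι → ι → ℝ) t :=
    hasDerivAt_pi.2 fun i => hasDerivAt_pi.2 fun j => hA i j
  have h2 := (differentiable_matDet (A t)).hasFDerivAt.comp_hasDerivAt t h1
  refine h2.congr_deriv ?_
  have h3 := (fderiv ℝ (fun X : ι → ι → ℝ => (Matrix.of X).det) (A t)).map_add
    (C.transpose * A t : Matrix ι ι ℝ) (A t * C : Matrix ι ι ℝ)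
  rw [fderiv_matDet_left, fderiv_matDet_right, Matrix.trace_transpose] at h3
  refine Eq.trans h3 ?_
  ring

end MatDet

section Metric

variable {E : Type} [NormedAddCommGroup E] [NormedSpace ℝ E] [FiniteDimensional ℝ E]
  {G : E → E →L[ℝ] E →L[ℝ] ℝ} {U : Set E} {z : E}

/-- Gram matrix in the basis `Module.finBasis` -/
def gram (G : E → E →L[ℝ] E →L[ℝ] ℝ) (z : E) :
    Matrix (Fin (Module.finrank ℝ E)) (Fin (Module.finrank ℝ E)) ℝ :=
  Matrix.of fun i j => G z (Module.finBasis ℝ E i) (Module.finBasis ℝ E j)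

theorem dens_eq (G : E → E →L[ℝ] E →L[ℝ] ℝ) (z : E) : dens G z = √(gram G z).det := rfl

theorem gram_posDef (h : LocalRiem G U) (hz : z ∈ U) : (gram G z).PosDef := by
  refine Matrix.PosDef.of_dotProduct_mulVec_pos ?_ ?_
  · ext i j
    simp [gram, h.symm z hz (Module.finBasis ℝ E i)]
  · intro x hx
    have h1 : star x ⬝ᵥ ((gram G z).mulVec x) =
        G z (∑ i, x i • Module.finBasis ℝ E i) (∑ i, x i • Module.finBasis ℝ E i) := by
      simp only [dotProduct, Matrix.mulVec, gram, Matrix.of_apply, map_sum, map_smul,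
        sum_apply, smul_apply, smul_eq_mul, Pi.star_apply,
        star_trivial, Finset.mul_sum]
      rw [Finset.sum_comm]
      refine Finset.sum_congr rfl fun i _ => Finset.sum_congr rfl fun j _ => ?_
      ring
    rw [h1]
    apply h.pos z hz
    intro h0
    apply hx
    have h2 := (Module.finBasis ℝ E).linearIndependent
    rw [Fintype.linearIndependent_iff] at h2
    funext i
    exact h2 x h0 i

theorem gram_det_pos (h : LocalRiem G U) (hz : z ∈ U) : 0 < (gram G z).det :=
  (gram_posDef h hz).det_pos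

theorem dens_pos (h : LocalRiem G U) (hz : z ∈ U) : 0 < dens G z :=
  Real.sqrt_pos.2 (gram_det_pos h hz)

theorem contDiffOn_gram_det (h : LocalRiem G U) : ContDiffOn ℝ ∞ (fun z => (gram G z).det) U := by
  have h1 : ContDiffOn ℝ ∞ (fun z => (fun i j => gram G z i j :
      Fin (Module.finrank ℝ E) → Fin (Module.finrank ℝ E) → ℝ)) U := by
    refine contDiffOn_pi.2 fun i => contDiffOn_pi.2 fun j => ?_
    exact (h.smooth.clm_apply contDiffOn_const).clm_apply contDiffOn_const
  exact contDiff_matDet.comp_contDiffOn h1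

theorem contDiffOn_dens (h : LocalRiem G U) : ContDiffOn ℝ ∞ (dens G) U := by
  have h1 := (contDiffOn_gram_det h).sqrt (fun z hz => (gram_det_pos h hz).ne')
  exact h1

/-- the derivative of the density -/
theorem fderiv_dens (h : LocalRiem G U) (hz : z ∈ U) (w : E) :
    fderiv ℝ (dens G) z w =
      dens G z * LinearMap.trace ℝ E (chris G z w : E →ₗ[ℝ] E) := by
  classical
  set b := Module.finBasis ℝ E with hb
  set C : Matrix (Fin (Module.finrank ℝ E)) (Fin (Module.finrank ℝ E)) ℝ :=
    LinearMap.toMatrix b b (chris G z w : E →ₗ[ℝ] E) with hC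
  have hexp : ∀ v : E, v = ∑ k, b.coord k v • b k := fun v => (b.sum_repr v).symm
  have hCk : ∀ k j, C k j = b.coord k (chris G z w (b j)) := by
    intro k j
    rw [hC, LinearMap.toMatrix_apply]
    rfl
  have hd : ∀ i j, HasDerivAt (fun s : ℝ => gram G (z + s • w) i j)
      ((C.transpose * gram G z + gram G z * C) i j) 0 := by
    intro i j
    have h1 : HasFDerivAt (fun y => G y (b i) (b j)) (((fderiv ℝ G z).flip (b i)).flip (b j))
        (z + (0:ℝ) • w) := by
      rw [zero_smul, add_zero]
      exact h.hasFDerivAt_apply hz (b i) (b j)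
    have h2 : HasDerivAt (fun s : ℝ => z + s • w) w 0 := by
      simpa using ((hasDerivAt_id (0:ℝ)).smul_const w).const_add z
    have h3 := h1.comp_hasDerivAt (0:ℝ) h2
    refine h3.congr_deriv ?_
    have h4 : (((fderiv ℝ G z).flip (b i)).flip (b j)) w = fderiv ℝ G z w (b i) (b j) := rfl
    rw [h4, h.fderiv_eq hz w (b i) (b j)]
    have h5 : G z (chris G z w (b i)) (b j) = (C.transpose * gram G z) i j := by
      conv_lhs => rw [hexp (chris G z w (b i))]
      simp only [map_sum, map_smul, sum_apply, smul_apply,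
        smul_eq_mul, Matrix.mul_apply, Matrix.transpose_apply, hCk, gram, Matrix.of_apply, hb]
    have h6 : G z (b i) (chris G z w (b j)) = (gram G z * C) i j := by
      conv_lhs => rw [hexp (chris G z w (b j))]
      simp only [map_sum, map_smul, smul_eq_mul, Matrix.mul_apply, hCk, gram, Matrix.of_apply, hb]
      refine Finset.sum_congr rfl fun k _ => ?_
      ring
    rw [h5, h6]
    rfl
  have h0 : gram G (z + (0:ℝ) • w) = gram G z := by rw [zero_smul, add_zero]
  have hd' : HasDerivAt (fun s : ℝ => (gram G (z + s • w)).det)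
      (2 * C.trace * (gram G z).det) 0 := by
    have h7 := hasDerivAt_matDet_sym (A := fun s : ℝ => gram G (z + s • w)) (C := C) (t := 0)
      (by simpa only [h0] using hd)
    simpa only [h0] using h7
  have h8 : HasDerivAt (fun s : ℝ => dens G (z + s • w))
      ((2 * C.trace * (gram G z).det) / (2 * √((gram G (z + (0:ℝ) • w)).det))) 0 :=
    hd'.sqrt (by rw [h0]; exact (gram_det_pos h hz).ne')
  have h9 : HasFDerivAt (dens G) (fderiv ℝ (dens G) z) (z + (0:ℝ) • w) := by
    rw [zero_smul, add_zero]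
    exact (((contDiffOn_dens h).contDiffAt (h.isOpen.mem_nhds hz)).differentiableAt
      (by simp)).hasFDerivAt
  have h10 : HasDerivAt (fun s : ℝ => z + s • w) w 0 := by
    simpa using ((hasDerivAt_id (0:ℝ)).smul_const w).const_add z
  have h11' : HasDerivAt (dens G ∘ fun s : ℝ => z + s • w) (fderiv ℝ (dens G) z w) 0 :=
    HasFDerivAt.comp_hasDerivAt (0:ℝ) h9 h10
  have h11 : fderiv ℝ (dens G) z w = _ := h11'.unique h8
  rw [h11, h0, LinearMap.trace_eq_matrix_trace ℝ b, ← hC, dens_eq]
  have h12 : 0 < √(gram G z).det := Real.sqrt_pos.2 (gram_det_pos h hz)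
  have h13 : (gram G z).det = √(gram G z).det * √(gram G z).det :=
    (Real.mul_self_sqrt (gram_det_pos h hz).le).symm
  field_simp
  rw [pow_two, ← h13]

theorem inverse_spec (h : LocalRiem G U) (hz : z ∈ U) (l : E →L[ℝ] ℝ) :
    G z (ContinuousLinearMap.inverse (G z) l) = l := by
  obtain ⟨T, hT⟩ := isInvertible_of_pos (h.pos z hz)
  rw [← hT, ContinuousLinearMap.inverse_equiv]
  exact T.apply_symm_apply l

theorem inverse_spec' (h : LocalRiem G U) (hz : z ∈ U) (v : E) :
    ContinuousLinearMap.inverse (G z) (G z v) = v := by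
  obtain ⟨T, hT⟩ := isInvertible_of_pos (h.pos z hz)
  rw [← hT, ContinuousLinearMap.inverse_equiv]
  exact T.symm_apply_apply v

theorem contDiffOn_inverse (h : LocalRiem G U) :
    ContDiffOn ℝ ∞ (fun z => ContinuousLinearMap.inverse (G z)) U := by
  have : CompleteSpace E := FiniteDimensional.complete ℝ E
  intro z hz
  obtain ⟨T, hT⟩ := isInvertible_of_pos (h.pos z hz)
  have h1 : ContDiffAt ℝ ∞ ContinuousLinearMap.inverse (G z) := by
    rw [← hT]; exact contDiffAt_map_inverse T
  exact (h1.comp z (h.smooth.contDiffAt (h.isOpen.mem_nhds hz))).contDiffWithinAt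

theorem gradG_spec (h : LocalRiem G U) (hz : z ∈ U) (φ : E → ℝ) (w : E) :
    G z (gradG G φ z) w = fderiv ℝ φ z w := by
  rw [gradG, inverse_spec h hz]

theorem gamG_comm (h : LocalRiem G U) (hz : z ∈ U) (φ ψ : E → ℝ) :
    gamG G φ ψ z = gamG G ψ φ z := by
  rw [gamG, gamG, ← gradG_spec h hz φ, ← gradG_spec h hz ψ, h.symm z hz]

theorem contDiffOn_gradG (h : LocalRiem G U) {φ : E → ℝ} (hφ : ContDiffOn ℝ ∞ φ U) :
    ContDiffOn ℝ ∞ (gradG G φ) U :=
  (contDiffOn_inverse h).clm_apply (hφ.fderiv_of_isOpen h.isOpen (by simp))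

/-- covariant derivative of the gradient -/
theorem fderiv_gradG (h : LocalRiem G U) (hz : z ∈ U) {φ : E → ℝ} (hφ : ContDiffOn ℝ ∞ φ U)
    (v : E) : fderiv ℝ (gradG G φ) z v = opG G φ z v - chris G z v (gradG G φ z) := by
  have hgd : HasFDerivAt (gradG G φ) (fderiv ℝ (gradG G φ) z) z :=
    (((contDiffOn_gradG h hφ).contDiffAt (h.isOpen.mem_nhds hz)).differentiableAt
      (by simp)).hasFDerivAt
  have hφd : HasFDerivAt (fderiv ℝ φ) (fderiv ℝ (fderiv ℝ φ) z) z :=
    (((hφ.fderiv_of_isOpen h.isOpen (m := ∞) (by simp)).contDiffAt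
      (h.isOpen.mem_nhds hz)).differentiableAt (by simp)).hasFDerivAt
  have key : ∀ w, G z (fderiv ℝ (gradG G φ) z v) w =
      fderiv ℝ (fderiv ℝ φ) z v w - fderiv ℝ G z v (gradG G φ z) w := by
    intro w
    have h1 : (fun y => G y (gradG G φ y) w) =ᶠ[𝓝 z] fun y => fderiv ℝ φ y w := by
      filter_upwards [h.isOpen.mem_nhds hz] with y hy using gradG_spec h hy φ w
    have h2 : HasFDerivAt (fun y => G y (gradG G φ y) w) _ z :=
      ((h.differentiableAt hz).hasFDerivAt.clm_apply hgd).clm_apply (hasFDerivAt_const w z)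
    have h3 : HasFDerivAt (fun y => fderiv ℝ φ y w) _ z :=
      hφd.clm_apply (hasFDerivAt_const w z)
    have h4 := (h2.congr_of_eventuallyEq h1.symm).unique h3
    have h5 := congrArg (fun T => T v) h4
    simp at h5
    linarith only [h5]
  have h6 : G z (fderiv ℝ (gradG G φ) z v) = G z (opG G φ z v - chris G z v (gradG G φ z)) := by
    ext w
    rw [key w, map_sub, sub_apply, opG, ContinuousLinearMap.comp_apply,
      inverse_spec h hz, h.fderiv_eq hz, gradG_spec h hz]
    simp only [hessG, sub_apply, ContinuousLinearMap.comp_apply,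
      ContinuousLinearMap.compL_apply]
    ring
  have h7 := congrArg (ContinuousLinearMap.inverse (G z)) h6
  rwa [inverse_spec' h hz, inverse_spec' h hz] at h7

/-- the Laplacian in divergence form -/
theorem div_dens_gradG (h : LocalRiem G U) (hz : z ∈ U) {φ : E → ℝ}
    (hφ : ContDiffOn ℝ ∞ φ U) :
    LinearMap.trace ℝ E (fderiv ℝ (fun y => dens G y • gradG G φ y) z : E →ₗ[ℝ] E) =
      dens G z * lapG G φ z := by
  have hgd : HasFDerivAt (gradG G φ) (fderiv ℝ (gradG G φ) z) z :=
    (((contDiffOn_gradG h hφ).contDiffAt (h.isOpen.mem_nhds hz)).differentiableAt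
      (by simp)).hasFDerivAt
  have hdd : HasFDerivAt (dens G) (fderiv ℝ (dens G) z) z :=
    (((contDiffOn_dens h).contDiffAt (h.isOpen.mem_nhds hz)).differentiableAt
      (by simp)).hasFDerivAt
  have h1 := (hdd.smul hgd).fderiv
  have h2 : (fderiv ℝ (fun y => dens G y • gradG G φ y) z : E →ₗ[ℝ] E) =
      dens G z • ((opG G φ z : E →ₗ[ℝ] E) - (chris G z (gradG G φ z) : E →ₗ[ℝ] E)) +
        (fderiv ℝ (dens G) z : E →ₗ[ℝ] ℝ).smulRight (gradG G φ z) := by
    ext v
    have h3 : fderiv ℝ (fun y => dens G y • gradG G φ y) z =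
      dens G z • fderiv ℝ (gradG G φ) z + (fderiv ℝ (dens G) z).smulRight (gradG G φ z) := h1
    have h4 : fderiv ℝ (fun y => dens G y • gradG G φ y) z v =
        dens G z • fderiv ℝ (gradG G φ) z v + (fderiv ℝ (dens G) z v) • (gradG G φ z) := by
      rw [h3]; simp
    show fderiv ℝ (fun y => dens G y • gradG G φ y) z v = _
    rw [h4, fderiv_gradG h hz hφ, h.chris_symm hz v]
    rfl
  rw [h2, map_add, map_smul, map_sub]
  have h5 : LinearMap.trace ℝ E ((fderiv ℝ (dens G) z : E →ₗ[ℝ] ℝ).smulRight (gradG G φ z)) =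
      fderiv ℝ (dens G) z (gradG G φ z) := by
    rw [LinearMap.trace_smulRight]
    rfl
  rw [h5, fderiv_dens h hz, lapG, smul_eq_mul]
  ring

end Metric

end Vale.Agent.P210.R2.H934
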