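import Vale.Agent.P210.R2.H934.Flat
import Mathlib.Geometry.Manifold.PartitionOfUnity
import Mathlib.Topology.Algebra.MetricSpace.Lipschitz

/-!
# P210, row CALA: integration by parts in a chart
-/

open scoped ContDiff Topology NNReal ENNReal Manifold
open Set Metric Filter MeasureTheory Measure

set_option maxSynthPendingDepth 3
set_option linter.unusedSectionVars false

noncomputable section

namespace Vale.Agent.P210.R2.H934

open H53

section Flat

variable {E : Type} [NormedAddCommGroup E] [NormedSpace ℝ E] [FiniteDimensional ℝ E]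
  [MeasurableSpace E] [BorelSpace E]

/-- integration by parts against a compactly supported `C¹` vector field -/
theorem ibp_flat (μ : Measure E) [IsAddHaarMeasure μ] {ψ : E → ℝ} {C : ℝ≥0}
    (hψ : LipschitzWith C ψ) {X : E → E} (hX : ContDiff ℝ 1 X) (hXc : HasCompactSupport X) :
    Integrable (fun z => fderiv ℝ ψ z (X z)) μ ∧
    ∫ z, fderiv ℝ ψ z (X z) ∂μ =
      -∫ z, ψ z * LinearMap.trace ℝ E (fderiv ℝ X z : E →ₗ[ℝ] E) ∂μ := by
  classical
  set b := Module.finBasis ℝ E with hb
  let L : Fin (Module.finrank ℝ E) → E →L[ℝ] ℝ := fun i => (b.coord i).toContinuousLinearMap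
  have hLX : ∀ i, ContDiff ℝ 1 (fun z => L i (X z)) := fun i => (L i).contDiff.comp hX
  have hLXc : ∀ i, HasCompactSupport (fun z => L i (X z)) := fun i =>
    hXc.comp_left (g := fun v => L i v) (map_zero _)
  have hLXl : ∀ i, ∃ D, LipschitzWith D (fun z => L i (X z)) := fun i =>
    ContDiff.lipschitzWith_of_hasCompactSupport (hLXc i) (hLX i) (by norm_num)
  have hexp : ∀ v : E, v = ∑ k, L k v • b k := fun v => (b.sum_repr v).symm
  have hXd : ∀ z, DifferentiableAt ℝ X z := fun z => (hX.differentiable (by norm_num)) z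
  -- integrability of the terms
  have hint : ∀ i, Integrable (fun z => lineDeriv ℝ ψ z (b i) * L i (X z)) μ := by
    intro i
    have h1 : Integrable (fun z => L i (X z)) μ :=
      (hLX i).continuous.integrable_of_hasCompactSupport (hLXc i)
    have h2 : MemLp (fun z => lineDeriv ℝ ψ z (b i)) ∞ μ := hψ.memLp_lineDeriv (b i)
    exact h1.mul_of_top_right h2
  have hint2 : ∀ i, Integrable (fun z => ψ z * fderiv ℝ (fun y => L i (X y)) z (b i)) μ := by
    intro i
    have h1 : Continuous (fun z => fderiv ℝ (fun y => L i (X y)) z (b i)) :=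
      ((hLX i).continuous_fderiv (by norm_num)).clm_apply continuous_const
    have h2 : HasCompactSupport (fun z => fderiv ℝ (fun y => L i (X y)) z (b i)) :=
      (hLXc i).fderiv_apply ℝ (b i)
    exact (hψ.continuous.mul h1).integrable_of_hasCompactSupport h2.mul_left
  have hkey : ∀ i, ∫ z, lineDeriv ℝ ψ z (b i) * L i (X z) ∂μ =
      -∫ z, ψ z * fderiv ℝ (fun y => L i (X y)) z (b i) ∂μ := by
    intro i
    obtain ⟨D, hD⟩ := hLXl i
    rw [LipschitzWith.integral_lineDeriv_mul_eq hψ hD (hLXc i) (b i), ← integral_neg]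
    refine integral_congr_ae (Eventually.of_forall fun z => ?_)
    have h1 : DifferentiableAt ℝ (fun y => L i (X y)) z := ((hLX i).differentiable (by norm_num)) z
    show lineDeriv ℝ (fun y => L i (X y)) z (-b i) * ψ z = _
    rw [h1.lineDeriv_eq_fderiv, map_neg]
    ring
  have hae : ∀ᵐ z ∂μ, fderiv ℝ ψ z (X z) = ∑ i, lineDeriv ℝ ψ z (b i) * L i (X z) := by
    filter_upwards [hψ.ae_differentiableAt] with z hz
    conv_lhs => rw [hexp (X z)]
    rw [_root_.map_sum]
    refine Finset.sum_congr rfl fun i _ => ?_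
    rw [map_smul, hz.lineDeriv_eq_fderiv, smul_eq_mul, mul_comm]
  have htr : ∀ z, ψ z * LinearMap.trace ℝ E (fderiv ℝ X z : E →ₗ[ℝ] E) =
      ∑ i, ψ z * fderiv ℝ (fun y => L i (X y)) z (b i) := by
    intro z
    rw [LinearMap.trace_eq_matrix_trace ℝ b, Matrix.trace, Finset.mul_sum]
    refine Finset.sum_congr rfl fun i _ => ?_
    rw [Matrix.diag_apply, LinearMap.toMatrix_apply]
    congr 1
    have h1 : HasFDerivAt (fun y => L i (X y)) ((L i).comp (fderiv ℝ X z)) z :=
      (L i).hasFDerivAt.comp z (hXd z).hasFDerivAt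
    rw [h1.fderiv]
    rfl
  refine ⟨(integrable_finsetSum _ fun i _ => hint i).congr
    (hae.mono fun z hz => hz.symm), ?_⟩
  rw [integral_congr_ae hae, integral_finsetSum _ fun i _ => hint i]
  simp only [htr]
  rw [integral_finsetSum _ fun i _ => hint2 i, ← Finset.sum_neg_distrib]
  exact Finset.sum_congr rfl fun i _ => hkey i

/-- a locally Lipschitz function with compact support is Lipschitz -/
theorem lipschitz_of_locally {X : Type*} [MetricSpace X] [ProperSpace X] {f : X → ℝ}
    (hf : LocallyLipschitz f) (hc : HasCompactSupport f) : ∃ C, LipschitzWith C f := by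
  have hK : IsCompact (cthickening 1 (tsupport f)) := hc.cthickening
  obtain ⟨C, hC⟩ := LocallyLipschitzOn.exists_lipschitzOnWith_of_compact hK
    hf.locallyLipschitzOn
  obtain ⟨B, hB⟩ := hc.exists_bound_of_continuousOn hf.continuous.continuousOn
  have hB' : ∀ x, |f x| ≤ max B 0 := by
    intro x
    by_cases hx : x ∈ tsupport f
    · exact (hB x hx).trans (le_max_left _ _)
    · rw [image_eq_zero_of_notMem_tsupport hx, abs_zero]
      exact le_max_right _ _
  have key : ∀ x ∈ tsupport f, ∀ y, dist (f x) (f y) ≤ (C + max B 0) * dist x y := by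
    intro x hx y
    by_cases hy : y ∈ cthickening 1 (tsupport f)
    · have h1 := hC.dist_le_mul x (self_subset_cthickening _ hx) y hy
      have h2 : 0 ≤ max B 0 * dist x y := mul_nonneg (le_max_right _ _) dist_nonneg
      linarith
    · have hd : 1 ≤ dist x y := by
        by_contra hlt
        exact hy (mem_cthickening_of_dist_le y x 1 _ hx (by rw [dist_comm]; linarith))
      have hy0 : f y = 0 := by
        refine image_eq_zero_of_notMem_tsupport fun h => hy (self_subset_cthickening _ h)
      rw [hy0, dist_zero_right, Real.norm_eq_abs]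
      have h2 : 0 ≤ (C : ℝ) * dist x y := by positivity
      have h3 : max B 0 ≤ max B 0 * dist x y := le_mul_of_one_le_right (le_max_right _ _) hd
      have := hB' x
      linarith
  refine ⟨C + Real.toNNReal (max B 0), LipschitzWith.of_dist_le_mul fun x y => ?_⟩
  rw [NNReal.coe_add, Real.coe_toNNReal _ (le_max_right _ _)]
  by_cases hx : x ∈ tsupport f
  · exact key x hx y
  · by_cases hy : y ∈ tsupport f
    · rw [dist_comm, dist_comm x y]
      exact key y hy x
    · rw [image_eq_zero_of_notMem_tsupport hx, image_eq_zero_of_notMem_tsupport hy, dist_self]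
      exact mul_nonneg (add_nonneg C.coe_nonneg (le_max_right _ _)) dist_nonneg

/-- smooth cut-off function -/
theorem exists_cut {K U : Set E} (hK : IsCompact K) (hU : IsOpen U) (hKU : K ⊆ U) :
    ∃ χ : E → ℝ, ContDiff ℝ ∞ χ ∧ HasCompactSupport χ ∧ tsupport χ ⊆ U ∧
      ∀ x ∈ K, χ =ᶠ[𝓝 x] fun _ => 1 := by
  obtain ⟨L, hL, hKL, hLU⟩ := exists_compact_between hK hU hKU
  obtain ⟨f, h1, h0, -⟩ := exists_contMDiffMap_one_nhds_of_subset_interior (n := ⊤)
    𝓘(ℝ, E) hK.isClosed hKL
  have hs : tsupport (f : E → ℝ) ⊆ L := by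
    refine closure_minimal ?_ hL.isClosed
    intro x hx
    by_contra hn
    exact hx (h0 x hn)
  refine ⟨f, f.contMDiff.contDiff, hL.of_isClosed_subset (isClosed_tsupport _) hs,
    hs.trans hLU, ?_⟩
  intro x hx
  have := Filter.Eventually.filter_mono (nhds_le_nhdsSet hx) h1
  exact this

/-- integration by parts for a metric -/
theorem ibp_metric (μ : Measure E) [IsAddHaarMeasure μ] {G : E → E →L[ℝ] E →L[ℝ] ℝ} {U : Set E}
    (h : LocalRiem G U) {φ ψ : E → ℝ} {C : ℝ≥0} (hφ : ContDiffOn ℝ ∞ φ U)
    (hψ : LipschitzWith C ψ) (hψc : HasCompactSupport ψ) (hψU : tsupport ψ ⊆ U) :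
    IntegrableOn (fun z => dens G z * gamG G φ ψ z) U μ ∧
    ∫ z in U, dens G z * gamG G φ ψ z ∂μ = -∫ z in U, dens G z * (ψ z * lapG G φ z) ∂μ := by
  obtain ⟨χ, hχ, hχc, hχU, hχ1⟩ := exists_cut hψc h.isOpen hψU
  set Y : E → E := fun z => dens G z • gradG G φ z with hY
  have hYs : ContDiffOn ℝ ∞ Y U := (contDiffOn_dens h).smul (contDiffOn_gradG h hφ)
  set X : E → E := fun z => χ z • Y z with hX
  have hXs : ContDiff ℝ ∞ X := by
    rw [← contMDiff_iff_contDiff]
    refine contMDiff_of_tsupport fun x hx => ?_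
    rw [contMDiffAt_iff_contDiffAt]
    have hxU : x ∈ U := hχU ((tsupport_smul_subset_left χ Y) hx)
    exact hχ.contDiffAt.smul (hYs.contDiffAt (h.isOpen.mem_nhds hxU))
  have hXc : HasCompactSupport X := hχc.smul_right
  have hoff : ∀ z ∉ tsupport ψ, fderiv ℝ ψ z = 0 := by
    intro z hz
    by_contra hne
    exact hz (support_fderiv_subset ℝ hne)
  have h1 : ∀ z ∈ U, dens G z * gamG G φ ψ z = fderiv ℝ ψ z (X z) := by
    intro z hz
    rw [gamG_comm h hz]
    by_cases hzs : z ∈ tsupport ψ
    · have : χ z = 1 := (hχ1 z hzs).self_of_nhds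
      simp only [hX, hY, this, one_smul, map_smul, smul_eq_mul, gamG]
    · simp only [gamG, hoff z hzs, zero_apply, mul_zero]
  have h2 : ∀ z ∉ U, fderiv ℝ ψ z (X z) = 0 := by
    intro z hz
    rw [hoff z fun hh => hz (hψU hh), zero_apply]
  have h3 : ∀ z ∈ U, dens G z * (ψ z * lapG G φ z) =
      ψ z * LinearMap.trace ℝ E (fderiv ℝ X z : E →ₗ[ℝ] E) := by
    intro z hz
    by_cases hzs : z ∈ tsupport ψ
    · have : X =ᶠ[𝓝 z] Y := by
        filter_upwards [hχ1 z hzs] with y hy
        simp only [hX, hy, one_smul]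
      rw [this.fderiv_eq, div_dens_gradG h hz hφ]
      ring
    · rw [image_eq_zero_of_notMem_tsupport hzs]
      ring
  have h4 : ∀ z ∉ U, ψ z * LinearMap.trace ℝ E (fderiv ℝ X z : E →ₗ[ℝ] E) = 0 := by
    intro z hz
    rw [image_eq_zero_of_notMem_tsupport fun hh => hz (hψU hh), zero_mul]
  obtain ⟨hi, hib⟩ := ibp_flat μ hψ (hXs.of_le (by norm_cast)) hXc
  have hm : MeasurableSet U := h.isOpen.measurableSet
  constructor
  · exact (hi.integrableOn (s := U)).congr_fun (fun z hz => (h1 z hz).symm) hm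
  · rw [setIntegral_congr_fun hm h1, setIntegral_congr_fun hm h3,
      setIntegral_eq_integral_of_forall_compl_eq_zero h2,
      setIntegral_eq_integral_of_forall_compl_eq_zero h4, hib]

end Flat

end Vale.Agent.P210.R2.H934
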