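import Vale.Agent.P210.R2.H934.Ibp
import Vale.Agent.P210.R2.H265.Jet

/-!
# P210, row CALA: the gradient and the Laplacian do not depend on the chart
-/

open scoped Manifold ContDiff Topology Bundle NNReal
open Set Metric Filter Bundle IsManifold MeasureTheory Manifold

set_option maxSynthPendingDepth 3
set_option linter.unusedSectionVars false

noncomputable section

namespace Vale.Agent.P210.R2.H934

open H53

variable {E : Type} [NormedAddCommGroup E] [NormedSpace ℝ E]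
  {M : Type} [MetricSpace M] [ChartedSpace E M] [IsManifold 𝓘(ℝ, E) ∞ M]

section Chart

variable {e e' : OpenPartialHomeomorph M E}

/-- the transition map is smooth at points of its domain -/
theorem contDiffAt_transition (he : e ∈ maximalAtlas 𝓘(ℝ, E) ∞ M)
    (he' : e' ∈ maximalAtlas 𝓘(ℝ, E) ∞ M) {p : M} (hp : p ∈ e.source) (hp' : p ∈ e'.source) :
    ContDiffAt ℝ ∞ (e' ∘ e.symm) (e p) := by
  have hzV : e p ∈ (e.symm ≫ₕ e').source := by simp [hp, hp']
  exact (transition_real he he').contDiffAt ((e.symm ≫ₕ e').open_source.mem_nhds hzV)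

omit [NormedSpace ℝ E] [IsManifold 𝓘(ℝ, E) ∞ M] in
theorem transition_eventually {p : M} (hp : p ∈ e.source) (hp' : p ∈ e'.source)
    {F : Type*} (u : M → F) :
    u ∘ e.symm =ᶠ[𝓝 (e p)] (u ∘ e'.symm) ∘ (e' ∘ e.symm) := by
  have hzV : e p ∈ (e.symm ≫ₕ e').source := by simp [hp, hp']
  filter_upwards [(e.symm ≫ₕ e').open_source.mem_nhds hzV] with y hy
  have : e.symm y ∈ e'.source := by simpa using hy.2
  simp [e'.left_inv this]

theorem transition_apply {p : M} (hp : p ∈ e.source) : (e' ∘ e.symm) (e p) = e' p := by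
  simp [e.left_inv hp]

theorem fderiv_transition_comp (he : e ∈ maximalAtlas 𝓘(ℝ, E) ∞ M)
    (he' : e' ∈ maximalAtlas 𝓘(ℝ, E) ∞ M) {p : M} (hp : p ∈ e.source) (hp' : p ∈ e'.source) :
    (fderiv ℝ (e ∘ e'.symm) (e' p)).comp (fderiv ℝ (e' ∘ e.symm) (e p)) =
      ContinuousLinearMap.id ℝ E := by
  have h1 : HasFDerivAt (e ∘ e.symm) (ContinuousLinearMap.id ℝ E) (e p) := by
    refine (hasFDerivAt_id (e p)).congr_of_eventuallyEq ?_
    filter_upwards [e.open_target.mem_nhds (e.map_source hp)] with y hy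
    simp [e.right_inv hy]
  have h2 := transition_eventually hp hp' (e : M → E)
  have hd : HasFDerivAt (e' ∘ e.symm) (fderiv ℝ (e' ∘ e.symm) (e p)) (e p) :=
    ((contDiffAt_transition he he' hp hp').differentiableAt (by simp)).hasFDerivAt
  have hd' : HasFDerivAt (e ∘ e'.symm) (fderiv ℝ (e ∘ e'.symm) (e' p)) ((e' ∘ e.symm) (e p)) := by
    rw [transition_apply hp]
    exact ((contDiffAt_transition he' he hp' hp).differentiableAt (by simp)).hasFDerivAt
  have h3 := (hd'.comp (e p) hd).congr_of_eventuallyEq h2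
  exact h3.unique h1

/-- differentiability in a chart does not depend on the chart -/
theorem differentiableAt_change (he : e ∈ maximalAtlas 𝓘(ℝ, E) ∞ M)
    (he' : e' ∈ maximalAtlas 𝓘(ℝ, E) ∞ M) {p : M} (hp : p ∈ e.source) (hp' : p ∈ e'.source)
    {u : M → ℝ} (h : DifferentiableAt ℝ (u ∘ e'.symm) (e' p)) :
    DifferentiableAt ℝ (u ∘ e.symm) (e p) := by
  have h1 : DifferentiableAt ℝ (u ∘ e'.symm) ((e' ∘ e.symm) (e p)) := by
    rwa [transition_apply hp]
  exact (h1.comp (e p) ((contDiffAt_transition he he' hp hp').differentiableAt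
    (by simp))).congr_of_eventuallyEq (transition_eventually hp hp' u)

/-- the derivative in another chart -/
theorem fderiv_change (he : e ∈ maximalAtlas 𝓘(ℝ, E) ∞ M)
    (he' : e' ∈ maximalAtlas 𝓘(ℝ, E) ∞ M) {p : M} (hp : p ∈ e.source) (hp' : p ∈ e'.source)
    (u : M → ℝ) :
    fderiv ℝ (u ∘ e.symm) (e p) =
      (fderiv ℝ (u ∘ e'.symm) (e' p)).comp (fderiv ℝ (e' ∘ e.symm) (e p)) := by
  by_cases h : DifferentiableAt ℝ (u ∘ e'.symm) (e' p)
  · have h1 : HasFDerivAt (u ∘ e'.symm) (fderiv ℝ (u ∘ e'.symm) (e' p))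
        ((e' ∘ e.symm) (e p)) := by
      rw [transition_apply hp]; exact h.hasFDerivAt
    exact ((h1.comp (e p) ((contDiffAt_transition he he' hp hp').differentiableAt
      (by simp)).hasFDerivAt).congr_of_eventuallyEq (transition_eventually hp hp' u)).fderiv
  · have h1 : ¬ DifferentiableAt ℝ (u ∘ e.symm) (e p) := fun hh =>
      h (differentiableAt_change he' he hp' hp hh)
    rw [fderiv_zero_of_not_differentiableAt h, fderiv_zero_of_not_differentiableAt h1]
    simp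

end Chart

section Riem

variable [RiemannianBundle (fun x : M => TangentSpace 𝓘(ℝ, E) x)]
  [IsContMDiffRiemannianBundle 𝓘(ℝ, E) ∞ E (fun x : M => TangentSpace 𝓘(ℝ, E) x)]
  [FiniteDimensional ℝ E] {e e' : OpenPartialHomeomorph M E}

theorem localRiem_chartG (he : e ∈ maximalAtlas 𝓘(ℝ, E) ∞ M) :
    LocalRiem (chartG e) e.target :=
  ⟨e.open_target, contDiffOn_chartG he, fun z _ v w => chartG_symm e z v w,
    fun _ hz v hv => chartG_pos he hz v hv⟩

/-- a vector is determined by its inner products with the image of the transition derivative -/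
theorem eq_of_chartG (he : e ∈ maximalAtlas 𝓘(ℝ, E) ∞ M)
    (he' : e' ∈ maximalAtlas 𝓘(ℝ, E) ∞ M) {p : M} (hp : p ∈ e.source) (hp' : p ∈ e'.source)
    {a b : E} (h : ∀ w, chartG e' (e' p) a (fderiv ℝ (e' ∘ e.symm) (e p) w) =
      chartG e' (e' p) b (fderiv ℝ (e' ∘ e.symm) (e p) w)) : a = b := by
  have h1 : ∀ w, chartG e' (e' p) a w = chartG e' (e' p) b w := by
    intro w
    have h2 := fderiv_transition_comp he' he hp' hp
    have h3 := congrArg (fun T => T w) h2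
    have h4 : fderiv ℝ (e' ∘ e.symm) (e p) (fderiv ℝ (e ∘ e'.symm) (e' p) w) = w := h3
    rw [← h4]
    exact h _
  by_contra hne
  have h2 := chartG_pos he' (e'.map_source hp') (a - b) (sub_ne_zero.2 hne)
  simp only [map_sub, sub_apply] at h2
  linarith [h1 a, h1 b]

theorem gradG_change (he : e ∈ maximalAtlas 𝓘(ℝ, E) ∞ M)
    (he' : e' ∈ maximalAtlas 𝓘(ℝ, E) ∞ M) {p : M} (hp : p ∈ e.source) (hp' : p ∈ e'.source)
    (u : M → ℝ) :
    fderiv ℝ (e' ∘ e.symm) (e p) (gradG (chartG e) (u ∘ e.symm) (e p)) =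
      gradG (chartG e') (u ∘ e'.symm) (e' p) := by
  refine eq_of_chartG he he' hp hp' fun w => ?_
  rw [chartG_change he he' hp hp', gradG_spec (localRiem_chartG he) (e.map_source hp),
    gradG_spec (localRiem_chartG he') (e'.map_source hp'), fderiv_change he he' hp hp' u]
  rfl

theorem gamG_change (he : e ∈ maximalAtlas 𝓘(ℝ, E) ∞ M)
    (he' : e' ∈ maximalAtlas 𝓘(ℝ, E) ∞ M) {p : M} (hp : p ∈ e.source) (hp' : p ∈ e'.source)
    (u v : M → ℝ) :
    gamG (chartG e) (u ∘ e.symm) (v ∘ e.symm) (e p) =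
      gamG (chartG e') (u ∘ e'.symm) (v ∘ e'.symm) (e' p) := by
  rw [gamG, gamG, ← gradG_change he he' hp hp' v, fderiv_change he he' hp hp' u]
  rfl

/-- the inner product of gradients in an arbitrary chart -/
theorem gam_chart (he : e ∈ maximalAtlas 𝓘(ℝ, E) ∞ M) {p : M} (hp : p ∈ e.source)
    (u v : M → ℝ) :
    Gam E u v p = gamG (chartG e) (u ∘ e.symm) (v ∘ e.symm) (e p) :=
  gamG_change (IsManifold.chart_mem_maximalAtlas p) he (mem_chart_source E p) hp u v

theorem contDiffOn_chart (he : e ∈ maximalAtlas 𝓘(ℝ, E) ∞ M) {u : M → ℝ}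
    (hu : ContMDiff 𝓘(ℝ, E) 𝓘(ℝ, ℝ) ∞ u) : ContDiffOn ℝ ∞ (u ∘ e.symm) e.target := by
  rw [← contMDiffOn_iff_contDiffOn]
  exact hu.comp_contMDiffOn (contMDiffOn_symm_of_mem_maximalAtlas he)

/-- the Hessian is a tensor -/
theorem hessG_change (he : e ∈ maximalAtlas 𝓘(ℝ, E) ∞ M)
    (he' : e' ∈ maximalAtlas 𝓘(ℝ, E) ∞ M) {p : M} (hp : p ∈ e.source) (hp' : p ∈ e'.source)
    {u : M → ℝ} (hu : ContMDiff 𝓘(ℝ, E) 𝓘(ℝ, ℝ) ∞ u) (v w : E) :
    hessG (chartG e) (u ∘ e.symm) (e p) v w =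
      hessG (chartG e') (u ∘ e'.symm) (e' p) (fderiv ℝ (e' ∘ e.symm) (e p) v)
        (fderiv ℝ (e' ∘ e.symm) (e p) w) := by
  have hz : e p ∈ e.target := e.map_source hp
  have hz' : e' p ∈ e'.target := e'.map_source hp'
  have hτ := contDiffAt_transition he he' hp hp'
  have hφ' : HasFDerivAt (fderiv ℝ (u ∘ e'.symm)) (fderiv ℝ (fderiv ℝ (u ∘ e'.symm)) (e' p))
      ((e' ∘ e.symm) (e p)) := by
    rw [transition_apply hp]
    exact ((((contDiffOn_chart he' hu).fderiv_of_isOpen e'.open_target (m := ∞) (by simp)).contDiffAt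
      (e'.open_target.mem_nhds hz')).differentiableAt (by simp)).hasFDerivAt
  have hτ1 : HasFDerivAt (e' ∘ e.symm) (fderiv ℝ (e' ∘ e.symm) (e p)) (e p) :=
    (hτ.differentiableAt (by simp)).hasFDerivAt
  have hτ2 : HasFDerivAt (fderiv ℝ (e' ∘ e.symm)) (fderiv ℝ (fderiv ℝ (e' ∘ e.symm)) (e p))
      (e p) :=
    ((hτ.fderiv_right (m := ∞) (by simp)).differentiableAt (by simp)).hasFDerivAt
  have h1 : (fderiv ℝ (u ∘ e.symm)) =ᶠ[𝓝 (e p)] fun y =>
      (fderiv ℝ (u ∘ e'.symm) ((e' ∘ e.symm) y)).comp (fderiv ℝ (e' ∘ e.symm) y) := by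
    have hzV : e p ∈ (e.symm ≫ₕ e').source := by simp [hp, hp']
    filter_upwards [(e.symm ≫ₕ e').open_source.mem_nhds hzV] with y hy
    have hy1 : y ∈ e.target := by simpa using hy.1
    have hy2 : e.symm y ∈ e'.source := by simpa using hy.2
    have := fderiv_change he he' (e.map_target hy1) hy2 u
    rw [e.right_inv hy1] at this
    exact this
  have h2 := (((hφ'.comp (e p) hτ1).clm_comp hτ2).congr_of_eventuallyEq h1).fderiv
  have h3 : fderiv ℝ (fderiv ℝ (u ∘ e.symm)) (e p) v w =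
      fderiv ℝ (fderiv ℝ (u ∘ e'.symm)) (e' p) (fderiv ℝ (e' ∘ e.symm) (e p) v)
        (fderiv ℝ (e' ∘ e.symm) (e p) w) +
      fderiv ℝ (u ∘ e'.symm) (e' p) (fderiv ℝ (fderiv ℝ (e' ∘ e.symm)) (e p) v w) := by
    rw [h2]
    simp [e.left_inv hp]
    ring
  have h4 := H265.chris_change he he' hz (by rwa [e.left_inv hp]) v w
  rw [e.left_inv hp] at h4
  have h5 : fderiv ℝ (u ∘ e.symm) (e p) (chris (chartG e) (e p) v w) =
      fderiv ℝ (u ∘ e'.symm) (e' p) (fderiv ℝ (fderiv ℝ (e' ∘ e.symm)) (e p) v w) +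
      fderiv ℝ (u ∘ e'.symm) (e' p) (chris (chartG e') (e' p)
        (fderiv ℝ (e' ∘ e.symm) (e p) v) (fderiv ℝ (e' ∘ e.symm) (e p) w)) := by
    rw [fderiv_change he he' hp hp' u, ContinuousLinearMap.comp_apply, h4, map_add]
  show fderiv ℝ (fderiv ℝ (u ∘ e.symm)) (e p) v w -
      fderiv ℝ (u ∘ e.symm) (e p) (chris (chartG e) (e p) v w) =
    fderiv ℝ (fderiv ℝ (u ∘ e'.symm)) (e' p) (fderiv ℝ (e' ∘ e.symm) (e p) v)
        (fderiv ℝ (e' ∘ e.symm) (e p) w) -
      fderiv ℝ (u ∘ e'.symm) (e' p) (chris (chartG e') (e' p)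
        (fderiv ℝ (e' ∘ e.symm) (e p) v) (fderiv ℝ (e' ∘ e.symm) (e p) w))
  rw [h3, h5]
  ring

theorem opG_change (he : e ∈ maximalAtlas 𝓘(ℝ, E) ∞ M)
    (he' : e' ∈ maximalAtlas 𝓘(ℝ, E) ∞ M) {p : M} (hp : p ∈ e.source) (hp' : p ∈ e'.source)
    {u : M → ℝ} (hu : ContMDiff 𝓘(ℝ, E) 𝓘(ℝ, ℝ) ∞ u) :
    (fderiv ℝ (e' ∘ e.symm) (e p)).comp (opG (chartG e) (u ∘ e.symm) (e p)) =
      (opG (chartG e') (u ∘ e'.symm) (e' p)).comp (fderiv ℝ (e' ∘ e.symm) (e p)) := by
  ext v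
  refine eq_of_chartG he he' hp hp' fun w => ?_
  rw [ContinuousLinearMap.comp_apply, chartG_change he he' hp hp']
  rw [opG, opG, ContinuousLinearMap.comp_apply, ContinuousLinearMap.comp_apply,
    ContinuousLinearMap.comp_apply, inverse_spec (localRiem_chartG he) (e.map_source hp),
    inverse_spec (localRiem_chartG he') (e'.map_source hp')]
  exact hessG_change he he' hp hp' hu v w

theorem opG_change' (he : e ∈ maximalAtlas 𝓘(ℝ, E) ∞ M)
    (he' : e' ∈ maximalAtlas 𝓘(ℝ, E) ∞ M) {p : M} (hp : p ∈ e.source) (hp' : p ∈ e'.source)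
    {u : M → ℝ} (hu : ContMDiff 𝓘(ℝ, E) 𝓘(ℝ, ℝ) ∞ u) :
    opG (chartG e) (u ∘ e.symm) (e p) =
      (fderiv ℝ (e ∘ e'.symm) (e' p)).comp ((opG (chartG e') (u ∘ e'.symm) (e' p)).comp
        (fderiv ℝ (e' ∘ e.symm) (e p))) := by
  rw [← opG_change he he' hp hp' hu, ← ContinuousLinearMap.comp_assoc,
    fderiv_transition_comp he he' hp hp', ContinuousLinearMap.id_comp]

theorem lapG_change (he : e ∈ maximalAtlas 𝓘(ℝ, E) ∞ M)
    (he' : e' ∈ maximalAtlas 𝓘(ℝ, E) ∞ M) {p : M} (hp : p ∈ e.source) (hp' : p ∈ e'.source)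
    {u : M → ℝ} (hu : ContMDiff 𝓘(ℝ, E) 𝓘(ℝ, ℝ) ∞ u) :
    lapG (chartG e) (u ∘ e.symm) (e p) = lapG (chartG e') (u ∘ e'.symm) (e' p) := by
  rw [lapG, lapG, opG_change' he he' hp hp' hu]
  have h1 := LinearMap.trace_mul_comm ℝ (fderiv ℝ (e ∘ e'.symm) (e' p) : E →ₗ[ℝ] E)
    (((opG (chartG e') (u ∘ e'.symm) (e' p)).comp
        (fderiv ℝ (e' ∘ e.symm) (e p)) : E →L[ℝ] E) : E →ₗ[ℝ] E)
  refine Eq.trans h1 ?_
  congr 1
  have h2 := fderiv_transition_comp he' he hp' hp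
  ext w
  have h3 := congrArg (fun T => T w) h2
  have h4 : fderiv ℝ (e' ∘ e.symm) (e p) (fderiv ℝ (e ∘ e'.symm) (e' p) w) = w := h3
  show opG (chartG e') (u ∘ e'.symm) (e' p)
    (fderiv ℝ (e' ∘ e.symm) (e p) (fderiv ℝ (e ∘ e'.symm) (e' p) w)) = _
  rw [h4]
  rfl

/-- the Laplacian in an arbitrary chart -/
theorem lap_chart (he : e ∈ maximalAtlas 𝓘(ℝ, E) ∞ M) {p : M} (hp : p ∈ e.source)
    {u : M → ℝ} (hu : ContMDiff 𝓘(ℝ, E) 𝓘(ℝ, ℝ) ∞ u) :
    Lap E u p = lapG (chartG e) (u ∘ e.symm) (e p) :=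
  lapG_change (IsManifold.chart_mem_maximalAtlas p) he (mem_chart_source E p) hp hu

theorem continuousOn_lapG {G : E → E →L[ℝ] E →L[ℝ] ℝ} {U : Set E} (h : LocalRiem G U)
    {φ : E → ℝ} (hφ : ContDiffOn ℝ ∞ φ U) : ContinuousOn (lapG G φ) U := by
  have h1 : ContinuousOn (opG G φ) U := by
    have h2 : ContinuousOn (fun z => ContinuousLinearMap.inverse (G z)) U :=
      (contDiffOn_inverse h).continuousOn
    have h3 : ContinuousOn (fderiv ℝ (fderiv ℝ φ)) U :=
      ((hφ.fderiv_of_isOpen h.isOpen (m := ∞) (by simp)).fderiv_of_isOpen h.isOpen (m := ∞)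
        (by simp)).continuousOn
    have h4 : ContinuousOn (fderiv ℝ φ) U :=
      (hφ.fderiv_of_isOpen h.isOpen (m := ∞) (by simp)).continuousOn
    have h5 : ContinuousOn (chris G) U := h.contDiffOn_chris.continuousOn
    have h6 : ContinuousOn (hessG G φ) U :=
      h3.sub (((ContinuousLinearMap.compL ℝ E E ℝ).continuous.comp_continuousOn h4).clm_comp h5)
    exact h2.clm_comp h6
  have h7 : Continuous (fun T : E →L[ℝ] E => LinearMap.trace ℝ E (T : E →ₗ[ℝ] E)) := by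
    let Tr : (E →L[ℝ] E) →ₗ[ℝ] ℝ := (LinearMap.trace ℝ E).comp (ContinuousLinearMap.coeLM ℝ)
    exact Tr.continuous_of_finiteDimensional
  exact h7.comp_continuousOn h1

theorem continuous_lap {u : M → ℝ} (hu : ContMDiff 𝓘(ℝ, E) 𝓘(ℝ, ℝ) ∞ u) :
    Continuous (Lap E u) := by
  rw [continuous_iff_continuousAt]
  intro p
  set e := chartAt E p with hedef
  have he : e ∈ maximalAtlas 𝓘(ℝ, E) ∞ M := IsManifold.chart_mem_maximalAtlas p
  have hp : p ∈ e.source := mem_chart_source E p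
  have h1 : Lap E u =ᶠ[𝓝 p] fun q => lapG (chartG e) (u ∘ e.symm) (e q) := by
    filter_upwards [e.open_source.mem_nhds hp] with q hq using lap_chart he hq hu
  refine ContinuousAt.congr ?_ h1.symm
  have h2 : ContinuousAt (lapG (chartG e) (u ∘ e.symm)) (e p) :=
    (continuousOn_lapG (localRiem_chartG he) (contDiffOn_chart he hu)).continuousAt
      (e.open_target.mem_nhds (e.map_source hp))
  exact ContinuousAt.comp (f := e) h2 (e.continuousAt hp)

end Riem

end Vale.Agent.P210.R2.H934
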