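import Vale.Agent.P210.R2.H934.Vol

/-!
# P210, row CALA: Rademacher's theorem on the manifold, measurability of the gradients
-/

open scoped Manifold ContDiff Topology Bundle NNReal
open Set Metric Filter Bundle IsManifold MeasureTheory Manifold

set_option maxSynthPendingDepth 3
set_option linter.unusedSectionVars false

noncomputable section

namespace Vale.Agent.P210.R2.H934

open H53

variable {E : Type} [NormedAddCommGroup E] [NormedSpace ℝ E] [FiniteDimensional ℝ E]
  {M : Type} [MetricSpace M] [ChartedSpace E M]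
  [RiemannianBundle (fun x : M => TangentSpace 𝓘(ℝ, E) x)]
  [IsManifold 𝓘(ℝ, E) ∞ M]
  [IsContMDiffRiemannianBundle 𝓘(ℝ, E) ∞ E (fun x : M => TangentSpace 𝓘(ℝ, E) x)]
  {e : OpenPartialHomeomorph M E}

/-- differentiability in a chart -/
theorem mdiff_iff_chart (he : e ∈ maximalAtlas 𝓘(ℝ, E) ∞ M) {p : M} (hp : p ∈ e.source)
    (u : M → ℝ) :
    MDifferentiableAt 𝓘(ℝ, E) 𝓘(ℝ, ℝ) u p ↔ DifferentiableAt ℝ (u ∘ e.symm) (e p) := by
  constructor
  · intro h
    have h1 : MDifferentiableAt 𝓘(ℝ, E) 𝓘(ℝ, E) e.symm (e p) :=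
      ((contMDiffOn_symm_of_mem_maximalAtlas he).contMDiffAt
        (e.open_target.mem_nhds (e.map_source hp))).mdifferentiableAt (by simp)
    have h2 : MDifferentiableAt 𝓘(ℝ, E) 𝓘(ℝ, ℝ) u (e.symm (e p)) := by rwa [e.left_inv hp]
    exact (h2.comp (e p) h1).differentiableAt
  · intro h
    have h1 : MDifferentiableAt 𝓘(ℝ, E) 𝓘(ℝ, E) e p :=
      ((contMDiffOn_of_mem_maximalAtlas he).contMDiffAt
        (e.open_source.mem_nhds hp)).mdifferentiableAt (by simp)
    have h2 : MDifferentiableAt 𝓘(ℝ, E) 𝓘(ℝ, ℝ) (u ∘ e.symm) (e p) := h.mdifferentiableAt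
    refine (h2.comp p h1).congr_of_eventuallyEq ?_
    filter_upwards [e.open_source.mem_nhds hp] with q hq
    simp [e.left_inv hq]

section Lip

variable [IsRiemannianManifold 𝓘(ℝ, E) M]

/-- inverse charts are locally Lipschitz -/
theorem symm_lip (he : e ∈ maximalAtlas 𝓘(ℝ, E) ∞ M) {z : E} (hz : z ∈ e.target) :
    ∃ K : ℝ≥0, ∃ r > 0, ball z r ⊆ e.target ∧ LipschitzOnWith K e.symm (ball z r) := by
  have h1 := H265.jet3 he hz (ε := 1) one_pos
  obtain ⟨r, hr, hb⟩ := Metric.eventually_nhds_iff.1 h1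
  obtain ⟨r', hr', hb'⟩ := Metric.isOpen_iff.1 e.open_target z hz
  refine ⟨Real.toNNReal ((1 + 1) * √‖chartG e z‖), min r r', lt_min hr hr',
    (ball_subset_ball (min_le_right _ _)).trans hb', LipschitzOnWith.of_dist_le_mul ?_⟩
  intro x hx y hy
  have hx' : dist x z < r := lt_of_lt_of_le hx (min_le_left _ _)
  have hy' : dist y z < r := lt_of_lt_of_le hy (min_le_left _ _)
  have h2 : dist ((x, y) : E × E) (z, z) < r := by
    rw [Prod.dist_eq]; exact max_lt hx' hy'
  have h3 := hb h2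
  rw [Real.coe_toNNReal _ (by positivity)]
  refine h3.trans ?_
  have h4 : √(chartG e z (x - y) (x - y)) ≤ √‖chartG e z‖ * dist x y := by
    rw [dist_eq_norm]
    refine Real.sqrt_le_iff.2 ⟨by positivity, ?_⟩
    rw [mul_pow, Real.sq_sqrt (norm_nonneg _)]
    have h5 := (chartG e z).le_opNorm₂ (x - y) (x - y)
    have h6 := le_abs_self (chartG e z (x - y) (x - y))
    rw [Real.norm_eq_abs] at h5
    nlinarith
  show (1 + 1) * √(chartG e z (x - y) (x - y)) ≤ _
  rw [mul_assoc]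
  exact mul_le_mul_of_nonneg_left h4 (by norm_num)

theorem comp_symm_lip (he : e ∈ maximalAtlas 𝓘(ℝ, E) ∞ M) {u : M → ℝ} (hu : LocallyLipschitz u)
    {z : E} (hz : z ∈ e.target) :
    ∃ K : ℝ≥0, ∃ r > 0, ball z r ⊆ e.target ∧ LipschitzOnWith K (u ∘ e.symm) (ball z r) := by
  obtain ⟨K, r, hr, hrt, hK⟩ := symm_lip he hz
  obtain ⟨K', t, ht, hK'⟩ := hu (e.symm z)
  have h1 : e.symm ⁻¹' t ∈ 𝓝 z := (e.continuousAt_symm hz).preimage_mem_nhds ht
  obtain ⟨r', hr', hb'⟩ := Metric.mem_nhds_iff.1 h1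
  refine ⟨K' * K, min r r', lt_min hr hr', (ball_subset_ball (min_le_left _ _)).trans hrt, ?_⟩
  exact hK'.comp (hK.mono (ball_subset_ball (min_le_left _ _)))
    (fun x hx => hb' (ball_subset_ball (min_le_right _ _) hx))

end Lip

section Meas

variable [MeasurableSpace E] [BorelSpace E] [MeasurableSpace M] [BorelSpace M] {μ : Measure M}

/-- Rademacher's theorem in a chart -/
theorem ae_diff_chart [IsRiemannianManifold 𝓘(ℝ, E) M] (he : e ∈ maximalAtlas 𝓘(ℝ, E) ∞ M)
    {u : M → ℝ} (hu : LocallyLipschitz u) : ∀ᵐ z ∂rho e, DifferentiableAt ℝ (u ∘ e.symm) z := by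
  choose! K r hr hrt hK using fun (z : E) (hz : z ∈ e.target) => comp_symm_lip he hu hz
  obtain ⟨t, htt, htc, ht⟩ := TopologicalSpace.countable_cover_nhdsWithin
    (s := e.target) (f := fun z => ball z (r z))
    (fun z hz => mem_nhdsWithin_of_mem_nhds (ball_mem_nhds z (hr z hz)))
  have h1 : ∀ᵐ x ∂(Module.finBasis ℝ E).addHaar, ∀ z ∈ t, x ∈ ball z (r z) →
      DifferentiableWithinAt ℝ (u ∘ e.symm) (ball z (r z)) x :=
    (ae_ball_iff htc).2 fun z hz =>
      (hK z (htt hz)).ae_differentiableWithinAt_of_mem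
  filter_upwards [ae_restrict_of_ae h1, ae_restrict_mem (μ := (Module.finBasis ℝ E).addHaar)
    e.open_target.measurableSet] with x hx hxt
  obtain ⟨z, hz, hxz⟩ := mem_iUnion₂.1 (ht hxt)
  exact (hx z hz hxz).differentiableAt (isOpen_ball.mem_nhds hxz)

/-- Rademacher's theorem on the manifold -/
theorem ae_mdiff [IsRiemannianManifold 𝓘(ℝ, E) M] [ProperSpace M] (hμ : IsVol E μ)
    {u : M → ℝ} (hu : LocallyLipschitz u) :
    ∀ᵐ p ∂μ, MDifferentiableAt 𝓘(ℝ, E) 𝓘(ℝ, ℝ) u p := by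
  refine ae_of_charts hμ fun e he => ?_
  filter_upwards [ae_diff_chart he hu, ae_restrict_mem (μ := (Module.finBasis ℝ E).addHaar)
    e.open_target.measurableSet] with z hz hzt
  rw [mdiff_iff_chart he (e.map_target hzt), e.right_inv hzt]
  exact hz

/-- the inner product of gradients is measurable in a chart -/
theorem measurable_gamG_ext (he : e ∈ maximalAtlas 𝓘(ℝ, E) ∞ M) (φ ψ : E → ℝ) :
    ∃ H : E → ℝ, Measurable H ∧ ∀ z ∈ e.target, H z = gamG (chartG e) φ ψ z := by
  classical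
  have hc : ContinuousOn (fun z => ContinuousLinearMap.inverse (chartG e z)) e.target :=
    (contDiffOn_inverse (localRiem_chartG he)).continuousOn
  set I : E → ((E →L[ℝ] ℝ) →L[ℝ] E) :=
    e.target.piecewise (fun z => ContinuousLinearMap.inverse (chartG e z)) (fun _ => 0) with hI
  borelize ((E →L[ℝ] ℝ) →L[ℝ] E)
  have hIm : Measurable I :=
    hc.measurable_piecewise continuousOn_const e.open_target.measurableSet
  have h1 : Measurable (fderiv ℝ φ) := measurable_fderiv ℝ φ
  have h2 : Measurable (fderiv ℝ ψ) := measurable_fderiv ℝ ψ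
  have h3 : Measurable fun z => I z (fderiv ℝ ψ z) := by
    have hcc : Continuous fun q : ((E →L[ℝ] ℝ) →L[ℝ] E) × (E →L[ℝ] ℝ) => q.1 q.2 :=
      isBoundedBilinearMap_apply.continuous
    exact hcc.measurable.comp (hIm.prodMk h2)
  refine ⟨fun z => fderiv ℝ φ z (I z (fderiv ℝ ψ z)), ?_, ?_⟩
  · have hcc : Continuous fun q : (E →L[ℝ] ℝ) × E => q.1 q.2 :=
      isBoundedBilinearMap_apply.continuous
    exact hcc.measurable.comp (h1.prodMk h3)
  · intro z hz
    simp only [hI, piecewise_eq_of_mem _ _ _ hz, gamG, gradG]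

theorem measurable_gam [ProperSpace M] (u v : M → ℝ) : Measurable (Gam E u v) := by
  obtain ⟨s, hs, hsu⟩ := exists_countable_charts (E := E) (M := M)
  choose H hHm hH using fun p : M => measurable_gamG_ext (E := E) (M := M)
    (IsManifold.chart_mem_maximalAtlas (I := 𝓘(ℝ, E)) (n := ∞) p)
    (u ∘ (chartAt E p).symm) (v ∘ (chartAt E p).symm)
  intro B hB
  have h1 : Gam E u v ⁻¹' B = ⋃ p ∈ s, (chartAt E p).source ∩
      ext0 (chartAt E p) ⁻¹' (H p ⁻¹' B) := by
    ext q
    constructor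
    · intro hq
      have hq1 : q ∈ ⋃ p ∈ s, (chartAt E p).source := by rw [hsu]; trivial
      obtain ⟨p, hp, hqp⟩ := mem_iUnion₂.1 hq1
      refine mem_iUnion₂.2 ⟨p, hp, hqp, ?_⟩
      show H p (ext0 (chartAt E p) q) ∈ B
      rw [ext0_apply _ hqp, hH p _ ((chartAt E p).map_source hqp),
        ← gam_chart (IsManifold.chart_mem_maximalAtlas p) hqp]
      exact hq
    · intro hq
      obtain ⟨p, hp, hqp, hqB⟩ := mem_iUnion₂.1 hq
      show Gam E u v q ∈ B
      have hqB' : H p (ext0 (chartAt E p) q) ∈ B := hqB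
      rwa [ext0_apply _ hqp, hH p _ ((chartAt E p).map_source hqp),
        ← gam_chart (IsManifold.chart_mem_maximalAtlas p) hqp] at hqB'
  rw [h1]
  exact MeasurableSet.biUnion hs fun p _ => (chartAt E p).open_source.measurableSet.inter
    (measurable_ext0 _ (hHm p hB))

end Meas

end Vale.Agent.P210.R2.H934
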